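import Vale.Agent.P088.R2.H856.B.Bnd2

/-!
# Zone B1: the list of bounds `Bd` from the core norm and the norms of `S b`, `S c`
-/

open MeasureTheory Set

noncomputable section

namespace Vale.Agent.P088.R2.H856.B

open Vale.Agent.P088.R2.H464.EP Vale.Agent.P088.R2.H961.B.T Vale.Agent.P088.R2.H516.B

variable {ι E : Type} [Fintype ι] [DecidableEq ι] [NormedAddCommGroup E] [NormedSpace ℝ E]
  {S : Dat ι E} {w : Wd S} {Z : Set E} {N : Sm E} {Lam eps : ℝ}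

/-- `b' = b + (1/2E) l.D^* c`. -/
def bp (S : Dat ι E) (b c : TE E) : TE E := b + (1 / 2 : ℝ) • S.EI (lDs S c)

/-- `e'_i = D_i^* b' + v_i^* c / 2`. -/
def ep (S : Dat ι E) (b c : TE E) (i : ι) : TE E :=
  S.Ds i (bp S b c) + (1 / 2 : ℝ) • S.vs i c

theorem Ks_eq (b c : TE E) (i : ι) :
    S.Ks i c = (2 : ℝ) • (ep S b c i + -(S.Ds i b) + -(zz S c i)) := by
  have h : S.vs i c = S.Ks i c - (1 / 2 : ℝ) • S.Ds2 (S.L i (S.EI c)) := rfl
  rw [ep, bp, zz, h, map_add, map_smul]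
  module

/-- The constant. -/
def CB (n : ℕ) (Lam : ℝ) : ℝ := 3000000 * QQ n Lam ^ 7

variable [MeasurableSpace E] [BorelSpace E] [FiniteDimensional ℝ E]
  (μ : Measure E) [μ.IsAddHaarMeasure]

/-- The core norm. -/
def M0 (S : Dat ι E) (b c : TE E) : ℝ :=
  ∑ i, nn μ S.e (ep S b c i) + nn μ (S.e * S.e) (bp S b c) + ∑ i, nn μ 1 (S.D i c) + nn μ S.e c

/-- The core norm, with the squares. -/
def M1 (S : Dat ι E) (b c : TE E) : ℝ :=
  M0 μ S b c + nn μ 1 (So S b) + nn μ (S.e' * mu S) (So S c)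

theorem ep_le (w : Wd S) (b c : TE E) (i : ι) : nn μ S.e (ep S b c i) ≤ M1 μ S b c := by
  have h1 := Finset.single_le_sum (f := fun i => nn μ S.e (ep S b c i))
    (fun i _ => nne μ w _) (Finset.mem_univ i)
  have h2 := nnee μ (S := S) (bp S b c)
  have h3 : 0 ≤ ∑ i, nn μ 1 (S.D i c) := Finset.sum_nonneg fun i _ => nn_nonneg μ one_nn _
  have h4 := nne μ w c
  have h5 := nn_nonneg μ one_nn (So S b)
  have h6 := nn_nonneg μ (wt_e'mu w).1 (So S c)
  unfold M1 M0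
  linarith

theorem M1_parts (w : Wd S) (b c : TE E) :
    nn μ (S.e * S.e) (bp S b c) ≤ M1 μ S b c ∧ XC μ S c ≤ M1 μ S b c ∧
      nn μ 1 (So S b) ≤ M1 μ S b c ∧ nn μ (S.e' * mu S) (So S c) ≤ M1 μ S b c := by
  have h1 : 0 ≤ ∑ i, nn μ S.e (ep S b c i) := Finset.sum_nonneg fun i _ => nne μ w _
  have h2 := nnee μ (S := S) (bp S b c)
  have h3 : 0 ≤ ∑ i, nn μ 1 (S.D i c) := Finset.sum_nonneg fun i _ => nn_nonneg μ one_nn _
  have h4 := nne μ w c
  have h5 := nn_nonneg μ one_nn (So S b)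
  have h6 := nn_nonneg μ (wt_e'mu w).1 (So S c)
  unfold M1 M0 XC
  refine ⟨?_, ?_, ?_, ?_⟩ <;> linarith

theorem M1_nn (w : Wd S) (b c : TE E) : 0 ≤ M1 μ S b c :=
  (nn_nonneg μ one_nn (So S b)).trans (M1_parts μ w b c).2.2.1

/-- **(b0)** -/
theorem b0_le (hz : Zn S Z N Lam eps) (w : Wd S) (b : TE E) {c : TE E} (hs : Su Z c) :
    nn μ (S.e * S.e) b ≤ 3 * QQ (Fintype.card ι) Lam ^ 2 * M1 μ S b c := by
  obtain ⟨p1, p2, -, -⟩ := M1_parts μ w b c
  have hM := M1_nn μ w b c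
  have e : b = bp S b c - (1 / 2 : ℝ) • S.EI (lDs S c) := by rw [bp]; abel
  have h0 : ∀ z, 0 ≤ ((S.e * S.e : Sm E) : E → ℝ) z := fun z => by
    rw [sm_mul]; exact mul_self_nonneg _
  have h1 := nn_sub_le μ h0 (bp S b c) ((1 / 2 : ℝ) • S.EI (lDs S c))
  rw [← e, nn_smul, Dat.EI, nn_ml] at h1
  have e1 : S.e * S.e * S.e' * S.e' = (S.e * S.e') * (S.e * S.e') := by ring
  rw [e1, S.inv, mul_one] at h1
  have h2 : nn μ 1 (lDs S c) ≤ (Fintype.card ι : ℝ) ^ 2 * Lam ^ 2 * (2 * XC μ S c) := by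
    rw [lDs, LinearMap.sum_apply]
    exact nn_lsum μ hz one_nn (fun i => su_Ds i hs) fun i => XC_Ds μ w i c
  have h3 := nQ (ι := ι) hz.L1
  have h4 := Q_ge (ι := ι) hz.L1
  have hX := XC_nn μ w c
  set Q := QQ (Fintype.card ι) Lam with hQ
  have h5 : (Fintype.card ι : ℝ) ^ 2 * Lam ^ 2 * (2 * XC μ S c) ≤
      Q ^ 2 * (2 * M1 μ S b c) := by gcongr
  have h6 : M1 μ S b c ≤ Q ^ 2 * M1 μ S b c :=
    le_mul_of_one_le_left hM (one_le_pow₀ h4)
  linarith

theorem TB_le (hz : Zn S Z N Lam eps) (w : Wd S) (b : TE E) {c : TE E} (hs : Su Z c) :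
    TB μ S b ≤ 4 * QQ (Fintype.card ι) Lam ^ 2 * M1 μ S b c := by
  have h1 := b0_le μ hz w b hs
  obtain ⟨-, -, p1, -⟩ := M1_parts μ w b c
  have hM := M1_nn μ w b c
  have h4 := Q_ge (ι := ι) hz.L1
  have h6 : M1 μ S b c ≤ QQ (Fintype.card ι) Lam ^ 2 * M1 μ S b c :=
    le_mul_of_one_le_left hM (one_le_pow₀ h4)
  unfold TB
  linarith

/-- `K^* c`. -/
theorem Ks_le (hz : Zn S Z N Lam eps) (hc : Zc S Z N Lam) (w : Wd S) {b c : TE E} (hb : Su Z b)
    (hs : Su Z c) (i : ι) : nn μ (S.e * w.mi) (S.Ks i c) ≤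
      19776 * QQ (Fintype.card ι) Lam ^ 3 * (YC μ S c + M1 μ S b c) := by
  have h0 := (wt_emi w).1
  have h1 := nn_add3_le μ h0 (ep S b c i) (-(S.Ds i b)) (-(zz S c i))
  rw [nn_neg, nn_neg] at h1
  have h2 : nn μ (S.e * w.mi) (ep S b c i) ≤ nn μ S.e (ep S b c i) :=
    nn_mono μ (Z := Set.univ) (Set.subset_univ _) fun z _ => by
      rw [sm_mul]; exact mul_le_of_le_one_right (w.he z).le (mi_le w z)
  have h3 := ep_le μ w b c i
  have h4 := B1ks μ hz hc w hb (Sum.inl i)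
  rw [As_inl] at h4
  have h5 := nn_zz μ hz hc w hs i
  have h6 := TB_le μ hz w b hs
  obtain ⟨-, p2, -, -⟩ := M1_parts μ w b c
  have hM := M1_nn μ w b c
  have hQ1 := Q_ge (ι := ι) hz.L1
  have hY := YC_nn μ w c
  set Q := QQ (Fintype.card ι) Lam with hQ
  have a1 : 336 * Q * TB μ S b ≤ 1344 * (Q ^ 3 * M1 μ S b c) := by
    calc _ ≤ 336 * Q * (4 * Q ^ 2 * M1 μ S b c) := by gcongr
      _ = _ := by ring
  have a2 : 303 * Q ^ 3 * (YC μ S c + XC μ S c) ≤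
      303 * Q ^ 3 * (YC μ S c + M1 μ S b c) := by gcongr
  have a3 : M1 μ S b c ≤ Q ^ 3 * M1 μ S b c := le_mul_of_one_le_left hM (one_le_pow₀ hQ1)
  have a4 : 0 ≤ Q ^ 3 * YC μ S c := by positivity
  rw [Ks_eq b c i, nn_smul]
  linarith

theorem QQ_ge_n (hL : 1 ≤ Lam) : (Fintype.card ι : ℝ) ≤ QQ (Fintype.card ι) Lam := by
  have hn : (0 : ℝ) ≤ Fintype.card ι := Nat.cast_nonneg _
  have hL2 : 1 ≤ Lam ^ 2 := one_le_pow₀ hL
  unfold QQ
  nlinarith

theorem VK_le (hz : Zn S Z N Lam eps) (hc : Zc S Z N Lam) (w : Wd S) {b c : TE E} (hb : Su Z b)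
    (hs : Su Z c) : ∑ i, nn μ (S.e * w.mi) (S.Ks i c) ≤
      19776 * QQ (Fintype.card ι) Lam ^ 4 * (YC μ S c + M1 μ S b c) := by
  have hM := M1_nn μ w b c
  have hY := YC_nn μ w c
  have hQ1 := Q_ge (ι := ι) hz.L1
  have hn := QQ_ge_n (ι := ι) hz.L1
  have h1 : ∑ i, nn μ (S.e * w.mi) (S.Ks i c) ≤ ∑ _i : ι,
      19776 * QQ (Fintype.card ι) Lam ^ 3 * (YC μ S c + M1 μ S b c) :=
    Finset.sum_le_sum fun i _ => Ks_le μ hz hc w hb hs i
  rw [Finset.sum_const, Finset.card_univ, nsmul_eq_mul] at h1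
  refine h1.trans ?_
  calc _ ≤ QQ (Fintype.card ι) Lam *
        (19776 * QQ (Fintype.card ι) Lam ^ 3 * (YC μ S c + M1 μ S b c)) := by gcongr
    _ = _ := by ring

/-- `(μ/E) |K² c|²` and the second derivatives with one `K`. -/
theorem KA_le (hz : Zn S Z N Lam eps) (hc : Zc S Z N Lam) (w : Wd S) {c : TE E} (hs : Su Z c)
    (k : ι ⊕ ι) (i : ι) : nn μ (S.e' * mu S) (Ak (vv S) S.w k (S.K i c)) ≤
      160 * nn μ (S.e' * mu S) (So S c) +
        464 * QQ (Fintype.card ι) Lam * eps ^ 2 * nn μ (S.e * w.mi) (S.K i c) := by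
  have h := W3z μ hz hc (wt_e'mu w) (Sum.inr i) hs
  rw [Ak_inr] at h
  have hn := nn_nonneg μ (wt_e'mu w).1
  have h1 : cc k * nn μ (S.e' * mu S) (Ak (vv S) S.w k (S.K i c)) ≤
      ∑ k, cc k * nn μ (S.e' * mu S) (Ak (vv S) S.w k (S.K i c)) :=
    Finset.single_le_sum (f := fun k => cc k * nn μ (S.e' * mu S) (Ak (vv S) S.w k (S.K i c)))
      (fun k _ => mul_nonneg (cc_pos k).le (hn _)) (Finset.mem_univ k)
  have h2 := mul_le_mul_of_nonneg_right (cc_ge k) (hn (Ak (vv S) S.w k (S.K i c)))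
  have h3 : nn μ (S.e' * mu S * (S.e * mu S)) (S.K i c) ≤
      eps ^ 2 * nn μ (S.e * w.mi) (S.K i c) := by
    rw [← nn_smul_w]
    refine nn_mono μ (Z := Z) (by rw [← Ak_inr]; exact su_Ak _ _ _ hs) fun z hzz => ?_
    have e1 : S.e' * mu S * (S.e * mu S) = (S.e * S.e') * (mu S * mu S) := by ring
    rw [e1, S.inv, one_mul, sm_smul, sm_mul, sm_mul]
    have b1 := hz.m3 z hzz
    have b2 := mi_val w z
    have b3 := mi_pos w z
    calc (mu S : E → ℝ) z * (mu S : E → ℝ) z =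
          (mu S : E → ℝ) z ^ 3 * (w.mi : E → ℝ) z -
            (mu S : E → ℝ) z * (mu S : E → ℝ) z * ((mu S : E → ℝ) z * (w.mi : E → ℝ) z - 1) := by
              ring
      _ = (mu S : E → ℝ) z ^ 3 * (w.mi : E → ℝ) z := by rw [b2]; ring
      _ ≤ eps ^ 2 * (S.e : E → ℝ) z * (w.mi : E → ℝ) z := by gcongr
      _ = _ := by ring
  have hQ1 := Q_ge (ι := ι) hz.L1
  set Q := QQ (Fintype.card ι) Lam with hQ
  have h4 : 116 * Q * nn μ (S.e' * mu S * (S.e * mu S)) (S.K i c) ≤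
      116 * Q * (eps ^ 2 * nn μ (S.e * w.mi) (S.K i c)) := by gcongr
  linarith

/-- `(μ/E) |D² c|²`, first form. -/
theorem YC_le (hz : Zn S Z N Lam eps) (hc : Zc S Z N Lam) (w : Wd S) {b c : TE E} (hb : Su Z b)
    (hs : Su Z c) : YC μ S c ≤ 22 * QQ (Fintype.card ι) Lam ^ 2 * nn μ (S.e' * mu S) (So S c) +
      1147008 * QQ (Fintype.card ι) Lam ^ 6 * eps ^ 2 * (YC μ S c + M1 μ S b c) := by
  have hQ1 := Q_ge (ι := ι) hz.L1
  have hn := QQ_ge_n (ι := ι) hz.L1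
  have hn0 : (0 : ℝ) ≤ Fintype.card ι := Nat.cast_nonneg _
  have h0 := (wt_e'mu w).1
  have hM := M1_nn μ w b c
  have hY := YC_nn μ w c
  have hSC := nn_nonneg μ h0 (So S c)
  have e1 : S.D2 c = So S c - (1 / 4 : ℝ) • ∑ i, S.K i (S.K i c) := by
    rw [So, LinearMap.add_apply, LinearMap.smul_apply, K2, LinearMap.sum_apply]
    simp only [Module.End.mul_apply]
    abel
  have h1 := nn_sub_le μ h0 (So S c) ((1 / 4 : ℝ) • ∑ i, S.K i (S.K i c))
  rw [← e1, nn_smul] at h1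
  have h2 := nn_sum_le μ Finset.univ h0 (fun i => S.K i (S.K i c))
  rw [Finset.card_univ] at h2
  have h3 : ∑ i, nn μ (S.e' * mu S) (S.K i (S.K i c)) ≤
      ∑ i, (160 * nn μ (S.e' * mu S) (So S c) +
        464 * QQ (Fintype.card ι) Lam * eps ^ 2 * nn μ (S.e * w.mi) (S.K i c)) :=
    Finset.sum_le_sum fun i _ => by
      have := KA_le μ hz hc w hs (Sum.inr i) i
      rwa [Ak_inr] at this
  rw [Finset.sum_add_distrib, Finset.sum_const, Finset.card_univ, nsmul_eq_mul,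
    ← Finset.mul_sum] at h3
  have h4 := (conv2 μ hc w hs).trans (VK_le μ hz hc w hb hs)
  set Q := QQ (Fintype.card ι) Lam with hQ
  set SC := nn μ (S.e' * mu S) (So S c) with hSCd
  have h5 : 464 * Q * eps ^ 2 * ∑ i, nn μ (S.e * w.mi) (S.K i c) ≤
      464 * Q * eps ^ 2 * (19776 * Q ^ 4 * (YC μ S c + M1 μ S b c)) := by gcongr
  have h6 : (Fintype.card ι : ℝ) * ∑ i, nn μ (S.e' * mu S) (S.K i (S.K i c)) ≤
      Q * (Q * (160 * SC) + 464 * Q * eps ^ 2 * (19776 * Q ^ 4 * (YC μ S c + M1 μ S b c))) := by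
    have h7 : (Fintype.card ι : ℝ) * (160 * SC) ≤ Q * (160 * SC) := by gcongr
    have h8 : 0 ≤ Q * (160 * SC) +
        464 * Q * eps ^ 2 * (19776 * Q ^ 4 * (YC μ S c + M1 μ S b c)) := by positivity
    calc _ ≤ (Fintype.card ι : ℝ) * (Q * (160 * SC) +
          464 * Q * eps ^ 2 * (19776 * Q ^ 4 * (YC μ S c + M1 μ S b c))) := by
            gcongr
            linarith
      _ ≤ _ := by gcongr
  have h9 : SC ≤ Q ^ 2 * SC := le_mul_of_one_le_left hSC (one_le_pow₀ hQ1)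
  have h10 : YC μ S c ≤ 2 * SC +
      2 * ((1 / 4) ^ 2 * nn μ (S.e' * mu S) (∑ i, S.K i (S.K i c))) := h1
  linarith

/-- `(μ/E) |D² c|²`. -/
theorem YC_fin (hz : Zn S Z N Lam eps) (hc : Zc S Z N Lam) (w : Wd S)
    (he : CB (Fintype.card ι) Lam * eps ^ 2 ≤ 1) {b c : TE E} (hb : Su Z b)
    (hs : Su Z c) : YC μ S c ≤ 44 * QQ (Fintype.card ι) Lam ^ 2 * nn μ (S.e' * mu S) (So S c) +
      2294016 * QQ (Fintype.card ι) Lam ^ 6 * eps ^ 2 * M1 μ S b c ∧
      YC μ S c ≤ 45 * QQ (Fintype.card ι) Lam ^ 2 * M1 μ S b c := by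
  have hQ1 := Q_ge (ι := ι) hz.L1
  have hM := M1_nn μ w b c
  have hY := YC_nn μ w c
  have hSC := nn_nonneg μ (wt_e'mu w).1 (So S c)
  obtain ⟨-, -, -, p4⟩ := M1_parts μ w b c
  have h1 := YC_le μ hz hc w hb hs
  unfold CB at he
  set Q := QQ (Fintype.card ι) Lam with hQ
  have h2 : 2294016 * Q ^ 6 * eps ^ 2 ≤ 1 := by
    have h3 : Q ^ 6 ≤ Q ^ 7 := pow_le_pow_right₀ hQ1 (by norm_num)
    have h4 : 2294016 * Q ^ 6 * eps ^ 2 ≤ 3000000 * Q ^ 7 * eps ^ 2 := by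
      gcongr
      norm_num
    linarith
  have h3 : 2294016 * Q ^ 6 * eps ^ 2 * YC μ S c ≤ YC μ S c :=
    mul_le_of_le_one_left hY h2
  have h4 : YC μ S c ≤ 44 * Q ^ 2 * nn μ (S.e' * mu S) (So S c) +
      2294016 * Q ^ 6 * eps ^ 2 * M1 μ S b c := by
    linarith
  refine ⟨h4, ?_⟩
  have h5 : 2294016 * Q ^ 6 * eps ^ 2 * M1 μ S b c ≤ M1 μ S b c := mul_le_of_le_one_left hM h2
  have h6 : 44 * Q ^ 2 * nn μ (S.e' * mu S) (So S c) ≤ 44 * Q ^ 2 * M1 μ S b c := by gcongr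
  have h7 : M1 μ S b c ≤ Q ^ 2 * M1 μ S b c := le_mul_of_one_le_left hM (one_le_pow₀ hQ1)
  linarith

/-- **(B1-BND)** The list of bounds on the zone. -/
theorem bnd (hz : Zn S Z N Lam eps) (hc : Zc S Z N Lam) (w : Wd S)
    (he : CB (Fintype.card ι) Lam * eps ^ 2 ≤ 1) {b c : TE E} (hb : Su Z b) (hs : Su Z c) :
    Bd μ S w N b c (CB (Fintype.card ι) Lam * M1 μ S b c)
      (CB (Fintype.card ι) Lam * (nn μ (S.e' * mu S) (So S c) + eps ^ 2 * M1 μ S b c)) := by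
  have hQ1 := Q_ge (ι := ι) hz.L1
  have hM := M1_nn μ w b c
  have hY := YC_nn μ w c
  have hSC := nn_nonneg μ (wt_e'mu w).1 (So S c)
  obtain ⟨y1, y2⟩ := YC_fin μ hz hc w he hb hs
  obtain ⟨-, p2, -, p4⟩ := M1_parts μ w b c
  have b0 := b0_le μ hz w b hs
  have tb := TB_le μ hz w b hs
  have hX := XC_nn μ w c
  have hks := fun i => Ks_le μ hz hc w hb hs i
  have hvk := VK_le μ hz hc w hb hs
  have hB1 := fun k => B1k μ hz hc w hb k
  have hB1s := fun k => B1ks μ hz hc w hb k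
  have hB2 := fun k j => B2all μ hz hc w hb k j
  have hC2 := fun k j => C2all μ hz hc w hs k j
  have hLQ : Lam ^ 2 ≤ QQ (Fintype.card ι) Lam := by
    have hn : (0 : ℝ) ≤ Fintype.card ι := Nat.cast_nonneg _
    have := sq_nonneg Lam
    unfold QQ; nlinarith
  unfold CB
  set Q := QQ (Fintype.card ι) Lam with hQ
  set M := M1 μ S b c with hMd
  have hp : ∀ n : ℕ, n ≤ 7 → Q ^ n * M ≤ Q ^ 7 * M := fun n hn => by
    gcongr
  have hQ7 : 0 ≤ Q ^ 7 * M := by positivity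
  -- `b`
  have t1 : Q * TB μ S b ≤ 4 * (Q ^ 7 * M) := by
    calc _ ≤ Q * (4 * Q ^ 2 * M) := by gcongr
      _ = 4 * (Q ^ 3 * M) := by ring
      _ ≤ _ := by have := hp 3 (by norm_num); linarith
  have t2 : Q ^ 2 * TB μ S b ≤ 4 * (Q ^ 7 * M) := by
    calc _ ≤ Q ^ 2 * (4 * Q ^ 2 * M) := by gcongr
      _ = 4 * (Q ^ 4 * M) := by ring
      _ ≤ _ := by have := hp 4 (by norm_num); linarith
  -- `c`
  have u0 : YC μ S c + M ≤ 46 * (Q ^ 2 * M) := by
    have := hp 0 (by norm_num)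
    have h7 : M ≤ Q ^ 2 * M := le_mul_of_one_le_left hM (one_le_pow₀ hQ1)
    linarith
  have u1 : Q ^ 3 * (YC μ S c + M) ≤ 46 * (Q ^ 7 * M) := by
    calc _ ≤ Q ^ 3 * (46 * (Q ^ 2 * M)) := by gcongr
      _ = 46 * (Q ^ 5 * M) := by ring
      _ ≤ _ := by have := hp 5 (by norm_num); linarith
  have u2 : Q ^ 4 * (YC μ S c + M) ≤ 46 * (Q ^ 6 * M) := by
    calc _ ≤ Q ^ 4 * (46 * (Q ^ 2 * M)) := by gcongr
      _ = _ := by ring
  have u3 : Q * (YC μ S c + XC μ S c) ≤ 46 * (Q ^ 7 * M) := by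
    calc _ ≤ Q * (YC μ S c + M) := by gcongr
      _ ≤ Q * (46 * (Q ^ 2 * M)) := by gcongr
      _ = 46 * (Q ^ 3 * M) := by ring
      _ ≤ _ := by have := hp 3 (by norm_num); linarith
  have u4 : 46 * (Q ^ 6 * M) ≤ 46 * (Q ^ 7 * M) := by
    have := hp 6 (by norm_num)
    linarith
  refine ⟨?_, ?_, ?_, ?_, ?_, ?_, ?_, ?_⟩
  · have := hp 2 (by norm_num)
    linarith
  · intro k i
    match k with
    | 0 => have := hB1 (Sum.inl i); rw [Ak_inl] at this; change nn μ _ (S.D i b) ≤ _; linarith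
    | 1 => have := hB1s (Sum.inl i); rw [As_inl] at this; change nn μ _ (S.Ds i b) ≤ _; linarith
    | 2 => have := hB1 (Sum.inr i); rw [Ak_inr] at this; change nn μ _ (S.K i b) ≤ _; linarith
    | 3 => have := hB1s (Sum.inr i); rw [As_inr] at this; change nn μ _ (S.Ks i b) ≤ _; linarith
  · intro k i k' j
    have g1 := fun x y => (hB2 x y).1
    have g2 := fun x y => (hB2 x y).2.1
    have g3 := fun x y => (hB2 x y).2.2.1
    have g4 := fun x y => (hB2 x y).2.2.2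
    have fin : ∀ {x : ℝ}, x ≤ 235008 * Q ^ 2 * TB μ S b → x ≤ 3000000 * Q ^ 7 * M :=
      fun hx => by linarith
    match k, k' with
    | 0, 0 => have := g1 (Sum.inl i) (Sum.inl j); rw [Ak_inl, Ak_inl] at this; exact fin this
    | 0, 1 => have := g2 (Sum.inl i) (Sum.inl j); rw [As_inl, Ak_inl] at this; exact fin this
    | 0, 2 => have := g1 (Sum.inl i) (Sum.inr j); rw [Ak_inr, Ak_inl] at this; exact fin this
    | 0, 3 => have := g2 (Sum.inl i) (Sum.inr j); rw [As_inr, Ak_inl] at this; exact fin this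
    | 1, 0 => have := g3 (Sum.inl i) (Sum.inl j); rw [Ak_inl, As_inl] at this; exact fin this
    | 1, 1 => have := g4 (Sum.inl i) (Sum.inl j); rw [As_inl, As_inl] at this; exact fin this
    | 1, 2 => have := g3 (Sum.inl i) (Sum.inr j); rw [Ak_inr, As_inl] at this; exact fin this
    | 1, 3 => have := g4 (Sum.inl i) (Sum.inr j); rw [As_inr, As_inl] at this; exact fin this
    | 2, 0 => have := g1 (Sum.inr i) (Sum.inl j); rw [Ak_inl, Ak_inr] at this; exact fin this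
    | 2, 1 => have := g2 (Sum.inr i) (Sum.inl j); rw [As_inl, Ak_inr] at this; exact fin this
    | 2, 2 => have := g1 (Sum.inr i) (Sum.inr j); rw [Ak_inr, Ak_inr] at this; exact fin this
    | 2, 3 => have := g2 (Sum.inr i) (Sum.inr j); rw [As_inr, Ak_inr] at this; exact fin this
    | 3, 0 => have := g3 (Sum.inr i) (Sum.inl j); rw [Ak_inl, As_inr] at this; exact fin this
    | 3, 1 => have := g4 (Sum.inr i) (Sum.inl j); rw [As_inl, As_inr] at this; exact fin this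
    | 3, 2 => have := g3 (Sum.inr i) (Sum.inr j); rw [Ak_inr, As_inr] at this; exact fin this
    | 3, 3 => have := g4 (Sum.inr i) (Sum.inr j); rw [As_inr, As_inr] at this; exact fin this
  · -- `c0`
    have h1 : nn μ (S.e * w.mi * (N + mu S) ^ 2) c ≤
        Lam ^ 2 * ∑ i, nn μ (S.e * w.mi) (ml (S.g i) c) := by
      have e1 : Lam ^ 2 * ∑ i, nn μ (S.e * w.mi) (ml (S.g i) c) =
          nn μ (Lam ^ 2 • (S.e * w.mi * ∑ i, S.g i * S.g i)) c := by
        have e0 : S.e * w.mi * ∑ i, S.g i * S.g i = ∑ i, S.e * w.mi * (S.g i * S.g i) :=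
          Finset.mul_sum _ _ _
        rw [nn_smul_w, e0]
        congr 1
        have : ∀ s : Finset ι, nn μ (∑ i ∈ s, S.e * w.mi * (S.g i * S.g i)) c =
            ∑ i ∈ s, nn μ (S.e * w.mi) (ml (S.g i) c) := fun s => by
          induction s using Finset.induction_on with
          | empty =>
            rw [Finset.sum_empty, Finset.sum_empty, nn, map_zero]
            simp
          | insert i s hi ih =>
            rw [Finset.sum_insert hi, Finset.sum_insert hi, nn_add_w, ih, nn_ml, mul_assoc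
              (S.e * w.mi)]
        exact (this _).symm
      rw [e1]
      refine nn_mono μ hs fun z hzz => ?_
      have a1 := hc.lb z hzz
      have a2 : 0 ≤ (S.e : E → ℝ) z * (w.mi : E → ℝ) z :=
        mul_nonneg (w.he z).le (mi_pos w z).le
      have a3 : ((((N + mu S) ^ 2 : Sm E)) : E → ℝ) z =
          ((N : E → ℝ) z + (mu S : E → ℝ) z) ^ 2 := rfl
      rw [sm_mul, sm_mul, a3, sm_smul, sm_mul, sm_mul, sm_sum]
      have a4 : ∑ i, ((S.g i * S.g i : Sm E) : E → ℝ) z = ∑ i, (S.g i : E → ℝ) z ^ 2 :=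
        Finset.sum_congr rfl fun i _ => by rw [sm_mul, sq]
      rw [a4]
      calc _ ≤ (S.e : E → ℝ) z * (w.mi : E → ℝ) z * (Lam ^ 2 * ∑ i, (S.g i : E → ℝ) z ^ 2) := by
            gcongr
        _ = _ := by ring
    have h2 := (conv1 μ hc w hs).trans hvk
    have h3 : Lam ^ 2 * ∑ i, nn μ (S.e * w.mi) (ml (S.g i) c) ≤
        Q * (19776 * Q ^ 4 * (YC μ S c + M)) := by
      have h4 : 0 ≤ ∑ i, nn μ (S.e * w.mi) (ml (S.g i) c) :=
        Finset.sum_nonneg fun i _ => nn_nonneg μ (wt_emi w).1 _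
      gcongr
    have h5 : Q * (19776 * Q ^ 4 * (YC μ S c + M)) ≤ 19776 * (46 * (Q ^ 7 * M)) := by
      calc _ = Q * (19776 * (Q ^ 4 * (YC μ S c + M))) := by ring
        _ ≤ Q * (19776 * (46 * (Q ^ 6 * M))) := by gcongr
        _ = _ := by ring
    linarith
  · intro i
    have a1 := XC_D μ w i c
    have a2 := XC_Ds μ w i c
    have a3 := hp 0 (by norm_num)
    constructor <;> linarith
  · intro i
    have a1 := hks i
    have a2 : nn μ (S.e * w.mi) (S.K i c) ≤ ∑ i, nn μ (S.e * w.mi) (S.K i c) :=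
      Finset.single_le_sum (f := fun i => nn μ (S.e * w.mi) (S.K i c))
        (fun i _ => nn_nonneg μ (wt_emi w).1 _) (Finset.mem_univ i)
    have a3 := (conv2 μ hc w hs).trans hvk
    constructor <;> linarith
  · intro i j
    obtain ⟨a1, a2, a3, -⟩ := hC2 i j
    refine ⟨?_, ?_, ?_⟩ <;> linarith
  · change YC μ S c ≤ _
    have h1 : 44 * Q ^ 2 * nn μ (S.e' * mu S) (So S c) ≤
        3000000 * Q ^ 7 * nn μ (S.e' * mu S) (So S c) := by
      have : Q ^ 2 ≤ Q ^ 7 := pow_le_pow_right₀ hQ1 (by norm_num)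
      gcongr
      norm_num
    have h2 : 2294016 * Q ^ 6 * eps ^ 2 * M ≤ 3000000 * Q ^ 7 * eps ^ 2 * M := by
      have : Q ^ 6 ≤ Q ^ 7 := pow_le_pow_right₀ hQ1 (by norm_num)
      gcongr
      norm_num
    linarith

end Vale.Agent.P088.R2.H856.B
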