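import Vale.Agent.P088.R2.H856.B.Cal

/-!
# The energy inequalities `L0`, `L2`, `W3` with the weights `E^α μ^β`, on a zone
-/

open MeasureTheory Set

noncomputable section

namespace Vale.Agent.P088.R2.H856.B

open Vale.Agent.P088.R2.H464.EP Vale.Agent.P088.R2.H961.B.T Vale.Agent.P088.R2.H516.B

variable {ι E : Type} [Fintype ι] [DecidableEq ι] [NormedAddCommGroup E] [NormedSpace ℝ E]

/-- The size of the first derivatives of `φ`, lower bound of `|K|`, convexity, on the zone. -/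
structure Zc (S : Dat ι E) (Z : Set E) (N : Sm E) (Lam : ℝ) : Prop where
  f1 : ∀ z ∈ Z, ∀ i, |(S.φ1 i : E → ℝ) z| ≤ Lam * (N : E → ℝ) z
  f2 : ∀ z ∈ Z, 0 ≤ ∑ i, (S.φ2 i i : E → ℝ) z
  l2 : ∀ z ∈ Z, 0 ≤ ∑ i, (S.l2 i i : E → ℝ) z
  lf : ∀ z ∈ Z, 0 ≤ ∑ i, (S.l1 i : E → ℝ) z * (S.φ1 i : E → ℝ) z
  lb : ∀ z ∈ Z, ((N : E → ℝ) z + (mu S : E → ℝ) z) ^ 2 ≤ Lam ^ 2 * ∑ i, (S.g i : E → ℝ) z ^ 2

/-! ## Values of smooth functions -/

omit [Fintype ι] [DecidableEq ι] in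
theorem sm_mul (f g : Sm E) (z : E) :
    ((f * g : Sm E) : E → ℝ) z = (f : E → ℝ) z * (g : E → ℝ) z := rfl

theorem sm_add (f g : Sm E) (z : E) :
    ((f + g : Sm E) : E → ℝ) z = (f : E → ℝ) z + (g : E → ℝ) z := rfl

theorem sm_smul (c : ℝ) (f : Sm E) (z : E) :
    ((c • f : Sm E) : E → ℝ) z = c * (f : E → ℝ) z := rfl

theorem sm_neg (f : Sm E) (z : E) : ((-f : Sm E) : E → ℝ) z = -(f : E → ℝ) z := rfl

theorem sm_one (z : E) : ((1 : Sm E) : E → ℝ) z = 1 := rfl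

theorem sm_zero (z : E) : ((0 : Sm E) : E → ℝ) z = 0 := rfl

theorem sm_two (z : E) : ((2 : Sm E) : E → ℝ) z = 2 := by
  have : (2 : Sm E) = 1 + 1 := by norm_num
  rw [this, sm_add, sm_one]; norm_num

theorem sm_sum {κ : Type*} (s : Finset κ) (f : κ → Sm E) (z : E) :
    ((∑ i ∈ s, f i : Sm E) : E → ℝ) z = ∑ i ∈ s, (f i : E → ℝ) z := by
  classical
  induction s using Finset.induction_on with
  | empty => simp
  | insert i s hi ih => rw [Finset.sum_insert hi, Finset.sum_insert hi, sm_add, ih]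

/-! ## The directions -/

/-- The directions. -/
def vv (S : Dat ι E) : ι ⊕ ι → E := Sum.elim S.a S.b

/-- The coefficients. -/
def cc : ι ⊕ ι → ℝ := Sum.elim (fun _ => 1) (fun _ => 1 / 4)

omit [Fintype ι] [DecidableEq ι] in
theorem cc_pos (k : ι ⊕ ι) : 0 < cc k := by
  rcases k with i | i <;> simp [cc]

omit [Fintype ι] [DecidableEq ι] in
theorem cc_ge (k : ι ⊕ ι) : 1 / 4 ≤ cc k := by
  rcases k with i | i
  · simp only [cc, Sum.elim_inl]; norm_num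
  · simp only [cc, Sum.elim_inr]; norm_num

variable (S : Dat ι E)

theorem aw (i : ι) : ds (S.a i) S.w = S.e * S.q i := by
  rw [Dat.w, map_add, map_smul, ds_mul, S.ae, S.aqq, S.aφ, zero_mul, zero_add, add_zero]
  have : S.e * (2 * S.q i) = (2 : ℝ) • (S.e * S.q i) := by
    rw [two_smul]; ring
  rw [this, smul_smul]; norm_num

theorem bw (i : ι) : ds (S.b i) S.w = S.g i := by
  rw [Dat.w, map_add, map_smul, ds_mul, S.be, S.bqq, Dat.g]
  have : 2 * (ds (S.b i) S.l * S.e) * S.qq + S.e * 0 = (2 : ℝ) • (S.l1 i * S.e * S.qq) := by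
    rw [two_smul, Dat.l1]; ring
  rw [this, smul_smul, Dat.φ1, add_comm]; norm_num

theorem Ak_inl (i : ι) : Ak (vv S) S.w (Sum.inl i) = S.D i := (S.D_eq i).symm

theorem Ak_inr (i : ι) : Ak (vv S) S.w (Sum.inr i) = S.K i := (S.K_eq i).symm

theorem As_inl (i : ι) : As (vv S) S.w (Sum.inl i) = S.Ds i := by
  rw [As, vv, Sum.elim_inl, aw, Dat.Ds]; abel

theorem As_inr (i : ι) : As (vv S) S.w (Sum.inr i) = S.Ks i := by
  rw [As, vv, Sum.elim_inr, bw, Dat.Ks]; abel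

theorem Sk_vv : Sk (vv S) cc S.w = So S := by
  rw [Sk, Fintype.sum_sum_type, So, Dat.D2, K2, Finset.smul_sum]
  simp only [Ak_inl, Ak_inr, cc, Sum.elim_inl, Sum.elim_inr, one_smul]

/-- `∂_k W`. -/
theorem wv_inl (i : ι) : ds (vv S (Sum.inl i)) S.w = S.e * S.q i := aw S i

theorem wv_inr (i : ι) : ds (vv S (Sum.inr i)) S.w = S.g i := bw S i

/-! ## Logarithmic derivatives -/

/-- Logarithmic derivative. -/
def Ld (θ : Sm E) (t : ι ⊕ ι → Sm E) : Prop := ∀ k, ds (vv S k) θ = t k * θ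

/-- Logarithmic derivative of `E`. -/
def le : ι ⊕ ι → Sm E := Sum.elim (fun _ => 0) (fun i => 2 * S.l1 i)

/-- Logarithmic derivative of `μ`. -/
def lm (w : Wd S) : ι ⊕ ι → Sm E :=
  Sum.elim (fun i => 2 * (S.e * S.q i) * w.mi) (fun i => 2 * (S.l1 i * (S.e * S.qq)) * w.mi)

theorem Ld.mul {θ θ' : Sm E} {t t' : ι ⊕ ι → Sm E} (h : Ld S θ t) (h' : Ld S θ' t') :
    Ld S (θ * θ') (fun k => t k + t' k) := fun k => by
  rw [ds_mul, h k, h' k]; ring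

theorem ld_e : Ld S S.e (le S) := fun k => by
  rcases k with i | i
  · simp only [vv, le, Sum.elim_inl, S.ae, zero_mul]
  · simp only [vv, le, Sum.elim_inr, S.be, Dat.l1]; ring

theorem ld_e' : Ld S S.e' (fun k => - le S k) := fun k => by
  rcases k with i | i
  · simp only [vv, le, Sum.elim_inl, S.ae', neg_zero, zero_mul]
  · simp only [vv, le, Sum.elim_inr, S.be']; ring

theorem ld_mu (w : Wd S) : Ld S (mu S) (lm S w) := fun k => by
  have hm := w.hmi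
  rcases k with i | i
  · simp only [vv, lm, Sum.elim_inl]
    have h : ds (S.a i) (mu S) = 2 * (S.e * S.q i) := by
      rw [mu, map_add, ds_one, ds_mul, S.ae, S.aqq]; ring
    rw [h]
    calc 2 * (S.e * S.q i) = 2 * (S.e * S.q i) * (mu S * w.mi) := by rw [hm, mul_one]
      _ = _ := by ring
  · simp only [vv, lm, Sum.elim_inr]
    have h : ds (S.b i) (mu S) = 2 * (S.l1 i * (S.e * S.qq)) := by
      rw [mu, map_add, ds_one, ds_mul, S.be, S.bqq, Dat.l1]; ring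
    rw [h]
    calc 2 * (S.l1 i * (S.e * S.qq)) = 2 * (S.l1 i * (S.e * S.qq)) * (mu S * w.mi) := by
          rw [hm, mul_one]
      _ = _ := by ring

theorem ld_mi (w : Wd S) : Ld S w.mi (fun k => - lm S w k) := fun k => by
  have hm := w.hmi
  have h0 : ds (vv S k) (mu S * w.mi) = 0 := by rw [hm, ds_one]
  rw [ds_mul, ld_mu S w k] at h0
  have h1 : w.mi * (lm S w k * mu S * w.mi + mu S * ds (vv S k) w.mi) = 0 := by
    rw [h0, mul_zero]
  have h2 : w.mi * (lm S w k * mu S * w.mi + mu S * ds (vv S k) w.mi) =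
      lm S w k * w.mi * (mu S * w.mi) + (mu S * w.mi) * ds (vv S k) w.mi := by ring
  rw [h2, hm, mul_one, one_mul] at h1
  rw [eq_neg_of_add_eq_zero_right h1]; ring

/-- The weights `E^α μ^β`, `|α| ≤ 1`, `|β| ≤ 2`. -/
def Wt (w : Wd S) (θ : Sm E) : Prop :=
  (∀ z, 0 ≤ (θ : E → ℝ) z) ∧ ∃ α β : ℝ, |α| ≤ 1 ∧ |β| ≤ 2 ∧
    Ld S θ (fun k => α • le S k + β • lm S w k)

variable {S}

theorem mu_val (z : E) : (mu S : E → ℝ) z = 1 + (S.e : E → ℝ) z * (S.qq : E → ℝ) z := rfl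

theorem qq_nn (z : E) : 0 ≤ (S.qq : E → ℝ) z := by
  rw [Dat.qq, sm_sum]
  exact Finset.sum_nonneg fun i _ => by rw [sm_mul]; exact mul_self_nonneg _

theorem q_le (i : ι) (z : E) : (S.q i : E → ℝ) z ^ 2 ≤ (S.qq : E → ℝ) z := by
  rw [Dat.qq, sm_sum]
  have := Finset.single_le_sum (f := fun k => ((S.q k * S.q k : Sm E) : E → ℝ) z)
    (fun k _ => by rw [sm_mul]; exact mul_self_nonneg _) (Finset.mem_univ i)
  refine le_trans (le_of_eq ?_) this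
  rw [sm_mul]; ring

theorem mu_ge (w : Wd S) (z : E) : 1 ≤ (mu S : E → ℝ) z := by
  rw [mu_val]
  have := mul_nonneg (w.he z).le (qq_nn (S := S) z)
  linarith

theorem mi_val (w : Wd S) (z : E) : (mu S : E → ℝ) z * (w.mi : E → ℝ) z = 1 := by
  rw [← sm_mul, w.hmi]; rfl

theorem mi_pos (w : Wd S) (z : E) : 0 < (w.mi : E → ℝ) z := by
  have h1 := mu_ge w z
  have h2 := mi_val w z
  by_contra h
  push Not at h
  nlinarith

theorem mi_le (w : Wd S) (z : E) : (w.mi : E → ℝ) z ≤ 1 := by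
  have h1 := mu_ge w z
  have h2 := mi_val w z
  have h3 := mi_pos w z
  nlinarith

theorem e'_val (z : E) : (S.e : E → ℝ) z * (S.e' : E → ℝ) z = 1 := by
  rw [← sm_mul, S.inv]; rfl

theorem e'_pos (w : Wd S) (z : E) : 0 < (S.e' : E → ℝ) z := by
  have h1 := w.he z
  have h2 := e'_val (S := S) z
  by_contra h
  push Not at h
  nlinarith

variable {Z : Set E} {N : Sm E} {Lam eps : ℝ}

theorem e_ge (w : Wd S) (hz : Zn S Z N Lam eps) {z : E} (h : z ∈ Z) :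
    (mu S : E → ℝ) z ≤ (S.e : E → ℝ) z := by
  have h1 := mu_ge w z
  have h2 := hz.m3 z h
  have h3 : eps ^ 2 ≤ 1 := by
    have := hz.e0; have := hz.e1; nlinarith
  have h4 := w.he z
  have h5 : (mu S : E → ℝ) z ≤ (mu S : E → ℝ) z ^ 3 := by
    have : 1 ≤ (mu S : E → ℝ) z ^ 2 := one_le_pow₀ h1
    nlinarith
  nlinarith

theorem e_ge1 (w : Wd S) (hz : Zn S Z N Lam eps) {z : E} (h : z ∈ Z) :
    1 ≤ (S.e : E → ℝ) z := (mu_ge w z).trans (e_ge w hz h)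

/-- The constant. -/
def QQ (n : ℕ) (Lam : ℝ) : ℝ := (1 + n) * Lam ^ 2

theorem g_le (w : Wd S) (hz : Zn S Z N Lam eps) (hc : Zc S Z N Lam) {z : E} (h : z ∈ Z) (i : ι) :
    (S.g i : E → ℝ) z ^ 2 ≤ Lam ^ 2 * (S.e : E → ℝ) z := by
  have h1 : (S.g i : E → ℝ) z = (S.φ1 i : E → ℝ) z +
    (S.l1 i : E → ℝ) z * ((S.e : E → ℝ) z * (S.qq : E → ℝ) z) := by
    change (S.φ1 i : E → ℝ) z + (S.l1 i : E → ℝ) z * (S.e : E → ℝ) z * (S.qq : E → ℝ) z = _
    ring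
  have h2 := hc.f1 z h i
  have h3 := hz.l1 z h i
  have hL : 0 ≤ Lam := by have := hz.L1; linarith
  have h4 : |(S.g i : E → ℝ) z| ≤ Lam * ((N : E → ℝ) z + (mu S : E → ℝ) z) := by
    rw [h1]
    have h5 := mul_nonneg (w.he z).le (qq_nn (S := S) z)
    calc _ ≤ |(S.φ1 i : E → ℝ) z| + |(S.l1 i : E → ℝ) z *
          ((S.e : E → ℝ) z * (S.qq : E → ℝ) z)| := abs_add_le _ _
      _ = |(S.φ1 i : E → ℝ) z| + |(S.l1 i : E → ℝ) z| *
          ((S.e : E → ℝ) z * (S.qq : E → ℝ) z) := by rw [abs_mul, abs_of_nonneg h5]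
      _ ≤ Lam * (N : E → ℝ) z + Lam * ((S.e : E → ℝ) z * (S.qq : E → ℝ) z) := by gcongr
      _ ≤ _ := by rw [mu_val]; nlinarith
  have h6 : (S.g i : E → ℝ) z ^ 2 ≤ (Lam * ((N : E → ℝ) z + (mu S : E → ℝ) z)) ^ 2 := by
    rw [← sq_abs]; gcongr
  refine h6.trans ?_
  rw [mul_pow]
  exact mul_le_mul_of_nonneg_left (hz.m2 z h) (sq_nonneg _)

theorem Q_ge (hL : 1 ≤ Lam) : 1 ≤ QQ (Fintype.card ι) Lam := by
  have : (0 : ℝ) ≤ Fintype.card ι := Nat.cast_nonneg _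
  have h2 : 1 ≤ Lam ^ 2 := one_le_pow₀ hL
  unfold QQ
  nlinarith

/-- `∑ c_k (∂_k W)² ≤ Q E μ`. -/
theorem m_le (w : Wd S) (hz : Zn S Z N Lam eps) (hc : Zc S Z N Lam) {z : E} (h : z ∈ Z) :
    ∑ k, cc k * (ds (vv S k) S.w : E → ℝ) z ^ 2 ≤
      QQ (Fintype.card ι) Lam * ((S.e : E → ℝ) z * (mu S : E → ℝ) z) := by
  rw [Fintype.sum_sum_type]
  have h1 : ∑ i, cc (Sum.inl i : ι ⊕ ι) * (ds (vv S (Sum.inl i)) S.w : E → ℝ) z ^ 2 =
      (S.e : E → ℝ) z ^ 2 * (S.qq : E → ℝ) z := by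
    rw [Dat.qq, sm_sum, Finset.mul_sum]
    refine Finset.sum_congr rfl fun i _ => ?_
    rw [wv_inl, sm_mul, sm_mul, cc, Sum.elim_inl]; ring
  have h2 : ∑ i, cc (Sum.inr i : ι ⊕ ι) * (ds (vv S (Sum.inr i)) S.w : E → ℝ) z ^ 2 ≤
      Fintype.card ι * (Lam ^ 2 * (S.e : E → ℝ) z) := by
    have : ∀ i ∈ Finset.univ, cc (Sum.inr i : ι ⊕ ι) *
        (ds (vv S (Sum.inr i)) S.w : E → ℝ) z ^ 2 ≤ Lam ^ 2 * (S.e : E → ℝ) z := fun i _ => by
      have h3 := g_le w hz hc h i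
      rw [wv_inr, cc, Sum.elim_inr]
      nlinarith [sq_nonneg ((S.g i : E → ℝ) z)]
    calc _ ≤ ∑ _i : ι, Lam ^ 2 * (S.e : E → ℝ) z := Finset.sum_le_sum this
      _ = _ := by rw [Finset.sum_const, Finset.card_univ, nsmul_eq_mul]
  rw [h1]
  refine (add_le_add_right h2 _).trans ?_
  have h4 := w.he z
  have h5 := mu_ge w z
  have h6 := mu_val (S := S) z
  have hn : (0 : ℝ) ≤ Fintype.card ι := Nat.cast_nonneg _
  have hL2 : 1 ≤ Lam ^ 2 := one_le_pow₀ hz.L1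
  have h7 : (S.e : E → ℝ) z ^ 2 * (S.qq : E → ℝ) z ≤
      1 * ((S.e : E → ℝ) z * (mu S : E → ℝ) z) := by
    rw [h6]; nlinarith
  have h8 : 1 * ((S.e : E → ℝ) z * (mu S : E → ℝ) z) ≤
      Lam ^ 2 * ((S.e : E → ℝ) z * (mu S : E → ℝ) z) := by
    gcongr
  have h9 : (Fintype.card ι : ℝ) * (Lam ^ 2 * (S.e : E → ℝ) z) ≤
      Fintype.card ι * (Lam ^ 2 * ((S.e : E → ℝ) z * (mu S : E → ℝ) z)) := by
    gcongr
    exact le_mul_of_one_le_right h4.le h5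
  unfold QQ
  nlinarith

/-- `∑ c_k t_k² ≤ 16 Q E μ` for the logarithmic derivatives of the weights. -/
theorem t_le (w : Wd S) (hz : Zn S Z N Lam eps) {α β : ℝ} (hα : |α| ≤ 1)
    (hβ : |β| ≤ 2) {z : E} (h : z ∈ Z) :
    ∑ k, cc k * ((α • le S k + β • lm S w k : Sm E) : E → ℝ) z ^ 2 ≤
      16 * QQ (Fintype.card ι) Lam * ((S.e : E → ℝ) z * (mu S : E → ℝ) z) := by
  have h4 := w.he z
  have h5 := mu_ge w z
  have h6 := mu_val (S := S) z
  have h7 := mi_val w z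
  have h8 := mi_pos w z
  have h9 := mi_le w z
  have h10 := qq_nn (S := S) z
  have he1 := e_ge1 w hz h
  have hn : (0 : ℝ) ≤ Fintype.card ι := Nat.cast_nonneg _
  have hL2 : 1 ≤ Lam ^ 2 := one_le_pow₀ hz.L1
  rw [Fintype.sum_sum_type]
  have h1 : ∑ i, cc (Sum.inl i : ι ⊕ ι) *
      ((α • le S (Sum.inl i) + β • lm S w (Sum.inl i) : Sm E) : E → ℝ) z ^ 2 =
      4 * β ^ 2 * ((S.e : E → ℝ) z * (w.mi : E → ℝ) z) ^ 2 * (S.qq : E → ℝ) z := by
    rw [Dat.qq, sm_sum, Finset.mul_sum]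
    refine Finset.sum_congr rfl fun i _ => ?_
    simp only [cc, le, lm, Sum.elim_inl, sm_add, sm_smul, sm_mul, sm_two, sm_zero]
    ring
  have hβ2 : β ^ 2 ≤ 4 := by
    rw [← sq_abs]; nlinarith [abs_nonneg β]
  have h2 : 4 * β ^ 2 * ((S.e : E → ℝ) z * (w.mi : E → ℝ) z) ^ 2 * (S.qq : E → ℝ) z ≤
      16 * ((S.e : E → ℝ) z * (mu S : E → ℝ) z) := by
    have a1 : ((S.e : E → ℝ) z * (w.mi : E → ℝ) z) ^ 2 * (S.qq : E → ℝ) z =
        (S.e : E → ℝ) z * (w.mi : E → ℝ) z * ((w.mi : E → ℝ) z *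
          ((S.e : E → ℝ) z * (S.qq : E → ℝ) z)) := by ring
    have a2 : (w.mi : E → ℝ) z * ((S.e : E → ℝ) z * (S.qq : E → ℝ) z) ≤ 1 := by
      have : (w.mi : E → ℝ) z * ((S.e : E → ℝ) z * (S.qq : E → ℝ) z) =
          1 - (w.mi : E → ℝ) z := by
        rw [← h7, h6]; ring
      linarith
    have a3 : 0 ≤ (S.e : E → ℝ) z * (w.mi : E → ℝ) z := by positivity
    have a4 : ((S.e : E → ℝ) z * (w.mi : E → ℝ) z) ^ 2 * (S.qq : E → ℝ) z ≤
        (S.e : E → ℝ) z * (mu S : E → ℝ) z := by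
      rw [a1]
      calc _ ≤ (S.e : E → ℝ) z * (w.mi : E → ℝ) z * 1 := by gcongr
        _ ≤ (S.e : E → ℝ) z * (mu S : E → ℝ) z := by
          rw [mul_one]; gcongr; linarith
    have a5 : 0 ≤ ((S.e : E → ℝ) z * (w.mi : E → ℝ) z) ^ 2 * (S.qq : E → ℝ) z := by positivity
    calc _ = 4 * β ^ 2 * (((S.e : E → ℝ) z * (w.mi : E → ℝ) z) ^ 2 * (S.qq : E → ℝ) z) := by ring
      _ ≤ 4 * 4 * ((S.e : E → ℝ) z * (mu S : E → ℝ) z) := by gcongr
      _ = _ := by ring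
  have h3 : ∑ i, cc (Sum.inr i : ι ⊕ ι) *
      ((α • le S (Sum.inr i) + β • lm S w (Sum.inr i) : Sm E) : E → ℝ) z ^ 2 ≤
      Fintype.card ι * (9 * Lam ^ 2) := by
    have : ∀ i ∈ Finset.univ, cc (Sum.inr i : ι ⊕ ι) *
      ((α • le S (Sum.inr i) + β • lm S w (Sum.inr i) : Sm E) : E → ℝ) z ^ 2 ≤
        9 * Lam ^ 2 := fun i _ => by
      have b1 := hz.l1 z h i
      simp only [cc, le, lm, Sum.elim_inr, sm_add, sm_smul, sm_mul, sm_two]
      have b2 : (w.mi : E → ℝ) z * ((S.e : E → ℝ) z * (S.qq : E → ℝ) z) ≤ 1 := by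
        have : (w.mi : E → ℝ) z * ((S.e : E → ℝ) z * (S.qq : E → ℝ) z) =
            1 - (w.mi : E → ℝ) z := by
          rw [← h7, h6]; ring
        linarith
      have b3 : 0 ≤ (w.mi : E → ℝ) z * ((S.e : E → ℝ) z * (S.qq : E → ℝ) z) := by positivity
      have b4 : |α + β * ((w.mi : E → ℝ) z * ((S.e : E → ℝ) z * (S.qq : E → ℝ) z))| ≤ 3 := by
        calc _ ≤ |α| + |β * ((w.mi : E → ℝ) z * ((S.e : E → ℝ) z * (S.qq : E → ℝ) z))| :=
              abs_add_le _ _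
          _ = |α| + |β| * ((w.mi : E → ℝ) z * ((S.e : E → ℝ) z * (S.qq : E → ℝ) z)) := by
            rw [abs_mul, abs_of_nonneg b3]
          _ ≤ 1 + 2 * 1 := by gcongr
          _ = 3 := by norm_num
      have b5 : (α + β * ((w.mi : E → ℝ) z * ((S.e : E → ℝ) z * (S.qq : E → ℝ) z))) ^ 2 ≤ 9 := by
        rw [← sq_abs]
        nlinarith [abs_nonneg (α + β * ((w.mi : E → ℝ) z * ((S.e : E → ℝ) z *
          (S.qq : E → ℝ) z)))]
      have b6 : (S.l1 i : E → ℝ) z ^ 2 ≤ Lam ^ 2 := by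
        rw [← sq_abs]; gcongr
      calc _ = (S.l1 i : E → ℝ) z ^ 2 *
            (α + β * ((w.mi : E → ℝ) z * ((S.e : E → ℝ) z * (S.qq : E → ℝ) z))) ^ 2 := by ring
        _ ≤ Lam ^ 2 * 9 := by gcongr
        _ = _ := by ring
    calc _ ≤ ∑ _i : ι, 9 * Lam ^ 2 := Finset.sum_le_sum this
      _ = _ := by rw [Finset.sum_const, Finset.card_univ, nsmul_eq_mul]
  rw [h1]
  have h11 : 1 ≤ (S.e : E → ℝ) z * (mu S : E → ℝ) z := by nlinarith
  have h12 : (Fintype.card ι : ℝ) * (9 * Lam ^ 2) ≤ 16 * (Fintype.card ι * Lam ^ 2) *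
      ((S.e : E → ℝ) z * (mu S : E → ℝ) z) := by
    have : (Fintype.card ι : ℝ) * (9 * Lam ^ 2) ≤ 16 * (Fintype.card ι * Lam ^ 2) := by
      have : (0 : ℝ) ≤ Fintype.card ι * Lam ^ 2 := by positivity
      linarith
    refine this.trans (le_mul_of_one_le_right (by positivity) h11)
  have h13 : 16 * ((S.e : E → ℝ) z * (mu S : E → ℝ) z) ≤
      16 * Lam ^ 2 * ((S.e : E → ℝ) z * (mu S : E → ℝ) z) := by
    gcongr
    linarith
  unfold QQ
  linarith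

end Vale.Agent.P088.R2.H856.B
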