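import Vale.Agent.P088.R2.H856.B.Loc

/-!
# Zone B1: the list of bounds `Bd`
-/

open MeasureTheory Set

noncomputable section

namespace Vale.Agent.P088.R2.H856.B

open Vale.Agent.P088.R2.H464.EP Vale.Agent.P088.R2.H961.B.T Vale.Agent.P088.R2.H516.B

variable {ι E : Type} [Fintype ι] [DecidableEq ι] [NormedAddCommGroup E] [NormedSpace ℝ E]
  {S : Dat ι E} {w : Wd S} {Z : Set E} {N : Sm E} {Lam eps : ℝ}

/-! ## The weights -/

theorem wt_emi (w : Wd S) : Wt S w (S.e * w.mi) := by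
  refine ⟨fun z => ?_, 1, -1, by simp, by simp, fun k => ?_⟩
  · rw [sm_mul]; exact mul_nonneg (w.he z).le (mi_pos w z).le
  · rw [(Ld.mul S (ld_e S) (ld_mi S w)) k]
    beta_reduce
    rw [one_smul, neg_smul, one_smul]

theorem wt_mimi (w : Wd S) : Wt S w (w.mi * w.mi) := by
  refine ⟨fun z => ?_, 0, -2, by simp, by simp, fun k => ?_⟩
  · rw [sm_mul]; exact mul_nonneg (mi_pos w z).le (mi_pos w z).le
  · rw [(Ld.mul S (ld_mi S w) (ld_mi S w)) k]
    beta_reduce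
    rw [zero_smul, zero_add, neg_smul, two_smul]
    ring

theorem wt_e'mi (w : Wd S) : Wt S w (S.e' * w.mi) := by
  refine ⟨fun z => ?_, -1, -1, by simp, by simp, fun k => ?_⟩
  · rw [sm_mul]; exact mul_nonneg (e'_pos w z).le (mi_pos w z).le
  · rw [(Ld.mul S (ld_e' S) (ld_mi S w)) k]
    beta_reduce
    rw [neg_smul, neg_smul, one_smul, one_smul]

theorem wt_e'mu (w : Wd S) : Wt S w (S.e' * mu S) := by
  refine ⟨fun z => ?_, -1, 1, by simp, by simp, fun k => ?_⟩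
  · rw [sm_mul]; exact mul_nonneg (e'_pos w z).le (zero_le_one.trans (mu_ge w z))
  · rw [(Ld.mul S (ld_e' S) (ld_mu S w)) k]
    beta_reduce
    rw [neg_smul, one_smul, one_smul]

/-! ## Bounds of the coefficients -/

theorem wk_le (hz : Zn S Z N Lam eps) (hc : Zc S Z N Lam) (w : Wd S) {z : E} (h : z ∈ Z)
    (k : ι ⊕ ι) : (ds (vv S k) S.w : E → ℝ) z ^ 2 ≤
      QQ (Fintype.card ι) Lam * ((S.e : E → ℝ) z * (mu S : E → ℝ) z) := by
  have h4 := w.he z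
  have h5 := mu_ge w z
  have h6 := mu_val (S := S) z
  have hn : (0 : ℝ) ≤ Fintype.card ι := Nat.cast_nonneg _
  have hL2 : 1 ≤ Lam ^ 2 := one_le_pow₀ hz.L1
  have h7 : Lam ^ 2 ≤ QQ (Fintype.card ι) Lam := by
    unfold QQ; nlinarith
  rcases k with i | i
  · rw [wv_inl, sm_mul]
    have h1 := q_le (S := S) i z
    calc ((S.e : E → ℝ) z * (S.q i : E → ℝ) z) ^ 2 =
          (S.e : E → ℝ) z * ((S.e : E → ℝ) z * (S.q i : E → ℝ) z ^ 2) := by ring
      _ ≤ (S.e : E → ℝ) z * ((S.e : E → ℝ) z * (S.qq : E → ℝ) z) := by gcongr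
      _ ≤ 1 * ((S.e : E → ℝ) z * (mu S : E → ℝ) z) := by
        rw [one_mul, h6]; gcongr; linarith
      _ ≤ _ := by gcongr; linarith
  · rw [wv_inr]
    have h1 := g_le w hz hc h i
    calc (S.g i : E → ℝ) z ^ 2 ≤ Lam ^ 2 * (S.e : E → ℝ) z := h1
      _ ≤ Lam ^ 2 * ((S.e : E → ℝ) z * (mu S : E → ℝ) z) := by
        gcongr; exact le_mul_of_one_le_right h4.le h5
      _ ≤ _ := by gcongr

theorem wkk_le (hz : Zn S Z N Lam eps) (w : Wd S) {z : E} (h : z ∈ Z)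
    (k j : ι ⊕ ι) : (ds (vv S k) (ds (vv S j) S.w) : E → ℝ) z ^ 2 ≤
      4 * QQ (Fintype.card ι) Lam * ((S.e : E → ℝ) z * (S.e : E → ℝ) z) := by
  have h4 := w.he z
  have h5 := mu_ge w z
  have h6 := mu_val (S := S) z
  have h8 := e_ge w hz h
  have h9 := e_ge1 w hz h
  have hn : (0 : ℝ) ≤ Fintype.card ι := Nat.cast_nonneg _
  have hL2 : 1 ≤ Lam ^ 2 := one_le_pow₀ hz.L1
  have h7 : Lam ^ 2 ≤ QQ (Fintype.card ι) Lam := by
    unfold QQ; nlinarith
  have hee : 0 ≤ (S.e : E → ℝ) z * (S.e : E → ℝ) z := by positivity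
  have hlq : ∀ i i' : ι, (2 * ((S.l1 i : E → ℝ) z * ((S.e : E → ℝ) z * (S.q i' : E → ℝ) z))) ^ 2 ≤
      4 * QQ (Fintype.card ι) Lam * ((S.e : E → ℝ) z * (S.e : E → ℝ) z) := fun i i' => by
    have h1 := q_le (S := S) i' z
    have h2 := hz.l1 z h i
    have h3 : (S.l1 i : E → ℝ) z ^ 2 ≤ Lam ^ 2 := by
      rw [← sq_abs]; gcongr
    have h10 : ((S.e : E → ℝ) z * (S.q i' : E → ℝ) z) ^ 2 ≤
        (S.e : E → ℝ) z * (S.e : E → ℝ) z := by
      calc ((S.e : E → ℝ) z * (S.q i' : E → ℝ) z) ^ 2 =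
          (S.e : E → ℝ) z * ((S.e : E → ℝ) z * (S.q i' : E → ℝ) z ^ 2) := by ring
        _ ≤ (S.e : E → ℝ) z * ((S.e : E → ℝ) z * (S.qq : E → ℝ) z) := by gcongr
        _ ≤ (S.e : E → ℝ) z * (mu S : E → ℝ) z := by rw [h6]; gcongr; linarith
        _ ≤ _ := by gcongr
    calc _ = 4 * (S.l1 i : E → ℝ) z ^ 2 * ((S.e : E → ℝ) z * (S.q i' : E → ℝ) z) ^ 2 := by ring
      _ ≤ 4 * Lam ^ 2 * ((S.e : E → ℝ) z * (S.e : E → ℝ) z) := by gcongr
      _ ≤ _ := by gcongr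
  rcases j with j | j
  · rw [wv_inl]
    rcases k with k | k
    · rw [vv, Sum.elim_inl, S.aeq]
      split_ifs
      · have : 1 * ((S.e : E → ℝ) z * (S.e : E → ℝ) z) ≤
          4 * QQ (Fintype.card ι) Lam * ((S.e : E → ℝ) z * (S.e : E → ℝ) z) := by
          gcongr; linarith
        calc _ = 1 * ((S.e : E → ℝ) z * (S.e : E → ℝ) z) := by ring
          _ ≤ _ := this
      · rw [sm_zero]
        have : 0 ≤ 4 * QQ (Fintype.card ι) Lam := by linarith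
        have := mul_nonneg this hee
        simpa using this
    · rw [vv, Sum.elim_inr, S.beq]
      exact hlq k j
  · rw [wv_inr]
    rcases k with k | k
    · rw [vv, Sum.elim_inl, S.ag]
      exact hlq j k
    · rw [vv, Sum.elim_inr, S.bg]
      have h1 := hz.kp z h k j
      have h2 := hz.m2 z h
      have hN : 0 ≤ (N : E → ℝ) z + (mu S : E → ℝ) z := by have := hz.N0 z h; linarith
      change (kp S k j : E → ℝ) z ^ 2 ≤ _
      calc (kp S k j : E → ℝ) z ^ 2 = |(kp S k j : E → ℝ) z| ^ 2 := (sq_abs _).symm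
        _ ≤ (Lam * ((N : E → ℝ) z + (mu S : E → ℝ) z)) ^ 2 := by gcongr
        _ = Lam ^ 2 * ((N : E → ℝ) z + (mu S : E → ℝ) z) ^ 2 := by ring
        _ ≤ Lam ^ 2 * (S.e : E → ℝ) z := by gcongr
        _ ≤ Lam ^ 2 * ((S.e : E → ℝ) z * (S.e : E → ℝ) z) := by
          gcongr; exact le_mul_of_one_le_right h4.le h9
        _ ≤ 4 * QQ (Fintype.card ι) Lam * ((S.e : E → ℝ) z * (S.e : E → ℝ) z) := by
          gcongr; linarith

/-! ## Stars -/

variable [MeasurableSpace E] [BorelSpace E] [FiniteDimensional ℝ E]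
  (μ : Measure E) [μ.IsAddHaarMeasure]

theorem nn_w (hz : Zn S Z N Lam eps) (hc : Zc S Z N Lam) (w : Wd S) {θ : Sm E}
    (hθ : ∀ z, 0 ≤ (θ : E → ℝ) z) (k : ι ⊕ ι) {h : TE E} (hh : Su Z h) :
    nn μ θ ((2 : ℝ) • ml (ds (vv S k) S.w) h) ≤
      4 * QQ (Fintype.card ι) Lam * nn μ (θ * (S.e * mu S)) h := by
  rw [nn_smul, nn_ml]
  have : (4 : ℝ) * QQ (Fintype.card ι) Lam * nn μ (θ * (S.e * mu S)) h =
    2 ^ 2 * (QQ (Fintype.card ι) Lam * nn μ (θ * (S.e * mu S)) h) := by ring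
  rw [this]
  refine mul_le_mul_of_nonneg_left ?_ (by norm_num)
  rw [← nn_smul_w]
  refine nn_mono μ hh fun z hzz => ?_
  have h1 := wk_le hz hc w hzz k
  have h2 := hθ z
  simp only [sm_mul, sm_smul]
  calc _ = (θ : E → ℝ) z * (ds (vv S k) S.w : E → ℝ) z ^ 2 := by ring
    _ ≤ (θ : E → ℝ) z * (QQ (Fintype.card ι) Lam * ((S.e : E → ℝ) z * (mu S : E → ℝ) z)) := by
      gcongr
    _ = _ := by ring

theorem nn_ww (hz : Zn S Z N Lam eps) (w : Wd S) {θ : Sm E}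
    (hθ : ∀ z, 0 ≤ (θ : E → ℝ) z) (k j : ι ⊕ ι) {h : TE E} (hh : Su Z h) :
    nn μ θ ((2 : ℝ) • ml (ds (vv S k) (ds (vv S j) S.w)) h) ≤
      16 * QQ (Fintype.card ι) Lam * nn μ (θ * (S.e * S.e)) h := by
  rw [nn_smul, nn_ml]
  have : (16 : ℝ) * QQ (Fintype.card ι) Lam * nn μ (θ * (S.e * S.e)) h =
    2 ^ 2 * (4 * QQ (Fintype.card ι) Lam * nn μ (θ * (S.e * S.e)) h) := by ring
  rw [this]
  refine mul_le_mul_of_nonneg_left ?_ (by norm_num)
  rw [← nn_smul_w]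
  refine nn_mono μ hh fun z hzz => ?_
  have h1 := wkk_le hz w hzz k j
  have h2 := hθ z
  simp only [sm_mul, sm_smul]
  calc _ = (θ : E → ℝ) z * (ds (vv S k) (ds (vv S j) S.w) : E → ℝ) z ^ 2 := by ring
    _ ≤ (θ : E → ℝ) z * (4 * QQ (Fintype.card ι) Lam *
        ((S.e : E → ℝ) z * (S.e : E → ℝ) z)) := by gcongr
    _ = _ := by ring

theorem star (hz : Zn S Z N Lam eps) (hc : Zc S Z N Lam) (w : Wd S) {θ : Sm E}
    (hθ : ∀ z, 0 ≤ (θ : E → ℝ) z) (k : ι ⊕ ι) {h : TE E} (hh : Su Z h) :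
    nn μ θ (As (vv S) S.w k h) ≤ 2 * nn μ θ (Ak (vv S) S.w k h) +
      8 * QQ (Fintype.card ι) Lam * nn μ (θ * (S.e * mu S)) h := by
  rw [As_eq]
  have h1 := nn_sub_le μ hθ ((2 : ℝ) • ml (ds (vv S k) S.w) h) (Ak (vv S) S.w k h)
  have h2 := nn_w μ hz hc w hθ k hh
  linarith

/-- `A_k A_j^* h`. -/
theorem star_in (hz : Zn S Z N Lam eps) (hc : Zc S Z N Lam) (w : Wd S) {θ : Sm E}
    (hθ : ∀ z, 0 ≤ (θ : E → ℝ) z) (k j : ι ⊕ ι) {h : TE E} (hh : Su Z h) :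
    nn μ θ (Ak (vv S) S.w k (As (vv S) S.w j h)) ≤
      3 * (4 * QQ (Fintype.card ι) Lam * nn μ (θ * (S.e * mu S)) (Ak (vv S) S.w k h) +
        16 * QQ (Fintype.card ι) Lam * nn μ (θ * (S.e * S.e)) h +
        nn μ θ (Ak (vv S) S.w k (Ak (vv S) S.w j h))) := by
  have e : Ak (vv S) S.w k (As (vv S) S.w j h) =
      (2 : ℝ) • ml (ds (vv S j) S.w) (Ak (vv S) S.w k h) +
      (2 : ℝ) • ml (ds (vv S k) (ds (vv S j) S.w)) h +
      -(Ak (vv S) S.w k (Ak (vv S) S.w j h)) := by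
    rw [As_eq, map_sub, map_smul, Ak_ml, smul_add, sub_eq_add_neg]
  rw [e]
  refine (nn_add3_le μ hθ _ _ _).trans ?_
  rw [nn_neg]
  have h1 := nn_w μ hz hc w hθ j (su_Ak (vv S) S.w k hh)
  have h2 := nn_ww μ hz w hθ k j hh
  linarith

/-! ## Bounds of `b` -/

theorem one_nn (z : E) : 0 ≤ ((1 : Sm E) : E → ℝ) z := by rw [sm_one]; exact zero_le_one

theorem emi_emu (w : Wd S) : S.e * w.mi * (S.e * mu S) = S.e * S.e := by
  have : S.e * w.mi * (S.e * mu S) = S.e * S.e * (mu S * w.mi) := by ring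
  rw [this, w.hmi, mul_one]

theorem mimi_emu (w : Wd S) : w.mi * w.mi * (S.e * mu S) = S.e * w.mi := by
  have : w.mi * w.mi * (S.e * mu S) = S.e * w.mi * (mu S * w.mi) := by ring
  rw [this, w.hmi, mul_one]

theorem e'mi_emu (w : Wd S) : S.e' * w.mi * (S.e * mu S) = 1 := by
  have : S.e' * w.mi * (S.e * mu S) = (S.e * S.e') * (mu S * w.mi) := by ring
  rw [this, w.hmi, S.inv, mul_one]

theorem B1s (hz : Zn S Z N Lam eps) (hc : Zc S Z N Lam) (w : Wd S) {b : TE E} (hb : Su Z b) :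
    ∑ k, cc k * nn μ (S.e * w.mi) (Ak (vv S) S.w k b) ≤
      nn μ 1 (So S b) + 41 * QQ (Fintype.card ι) Lam * nn μ (S.e * S.e) b := by
  have h := L0z μ hz hc (wt_emi w) (θ₁ := 1) (θ₂ := S.e * w.mi * (S.e * w.mi)) one_nn
    (fun z => by rw [sm_mul]; exact mul_self_nonneg _)
    (fun z => by rw [sm_one, one_mul, sm_mul (S.e * w.mi), sq]) hb
  rw [emi_emu] at h
  have h1 : nn μ (S.e * w.mi * (S.e * w.mi)) b ≤ nn μ (S.e * S.e) b :=
    nn_mono μ hb fun z _ => by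
      have h4 := w.he z
      have h8 := mi_pos w z
      have h9 := mi_le w z
      simp only [sm_mul]
      have : (S.e : E → ℝ) z * (w.mi : E → ℝ) z ≤ (S.e : E → ℝ) z :=
        mul_le_of_le_one_right h4.le h9
      gcongr
  have h2 := nn_nonneg μ (θ := S.e * S.e) (fun z => by rw [sm_mul]; exact mul_self_nonneg _) b
  have h3 := Q_ge (ι := ι) hz.L1
  nlinarith [mul_le_mul_of_nonneg_right h3 h2]

theorem nnee (b : TE E) : 0 ≤ nn μ (S.e * S.e) b :=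
  nn_nonneg μ (fun z => by rw [sm_mul]; exact mul_self_nonneg _) b

/-- The two norms which control `b`. -/
def TB (S : Dat ι E) (b : TE E) : ℝ := nn μ 1 (So S b) + nn μ (S.e * S.e) b

theorem B1k (hz : Zn S Z N Lam eps) (hc : Zc S Z N Lam) (w : Wd S) {b : TE E} (hb : Su Z b)
    (k : ι ⊕ ι) : nn μ (S.e * w.mi) (Ak (vv S) S.w k b) ≤
      164 * QQ (Fintype.card ι) Lam * TB μ S b := by
  have h := B1s μ hz hc w hb
  have h1 : cc k * nn μ (S.e * w.mi) (Ak (vv S) S.w k b) ≤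
      ∑ k, cc k * nn μ (S.e * w.mi) (Ak (vv S) S.w k b) :=
    Finset.single_le_sum (f := fun k => cc k * nn μ (S.e * w.mi) (Ak (vv S) S.w k b))
      (fun k _ => mul_nonneg (cc_pos k).le (nn_nonneg μ (wt_emi w).1 _)) (Finset.mem_univ k)
  have h2 := nn_nonneg μ (wt_emi w).1 (Ak (vv S) S.w k b)
  have h3 := cc_ge k
  have h4 := Q_ge (ι := ι) hz.L1
  have h5 := nn_nonneg μ one_nn (So S b)
  have h6 := nnee μ (S := S) b
  have h7 := mul_le_mul_of_nonneg_right h3 h2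
  unfold TB
  nlinarith [mul_le_mul_of_nonneg_right h4 h5]

theorem B1ks (hz : Zn S Z N Lam eps) (hc : Zc S Z N Lam) (w : Wd S) {b : TE E} (hb : Su Z b)
    (k : ι ⊕ ι) : nn μ (S.e * w.mi) (As (vv S) S.w k b) ≤
      336 * QQ (Fintype.card ι) Lam * TB μ S b := by
  have h1 := star μ hz hc w (wt_emi w).1 k hb
  have h2 := B1k μ hz hc w hb k
  rw [emi_emu] at h1
  have h4 := Q_ge (ι := ι) hz.L1
  have h5 := nn_nonneg μ one_nn (So S b)
  have h6 : nn μ (S.e * S.e) b ≤ TB μ S b := by unfold TB; linarith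
  have h7 : 0 ≤ QQ (Fintype.card ι) Lam := by linarith
  have h8 := mul_le_mul_of_nonneg_left h6 h7
  linarith

theorem TB_nn (b : TE E) : 0 ≤ TB μ S b :=
  add_nonneg (nn_nonneg μ one_nn _) (nnee μ b)

theorem B2kj (hz : Zn S Z N Lam eps) (hc : Zc S Z N Lam) (w : Wd S) {b : TE E} (hb : Su Z b)
    (k j : ι ⊕ ι) : nn μ (w.mi * w.mi) (Ak (vv S) S.w k (Ak (vv S) S.w j b)) ≤
      38048 * QQ (Fintype.card ι) Lam ^ 2 * TB μ S b := by
  have h := L2z μ hz hc (wt_mimi w) hb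
  rw [mimi_emu] at h
  have h0 := B1s μ hz hc w hb
  have hn : ∀ h' : TE E, 0 ≤ nn μ (w.mi * w.mi) h' := nn_nonneg μ (wt_mimi w).1
  have h1 : cc j * (cc k * nn μ (w.mi * w.mi) (Ak (vv S) S.w k (Ak (vv S) S.w j b))) ≤
      ∑ j, ∑ k, cc j * (cc k * nn μ (w.mi * w.mi) (Ak (vv S) S.w k (Ak (vv S) S.w j b))) := by
    refine le_trans ?_ (Finset.single_le_sum (f := fun j => ∑ k, cc j * (cc k *
      nn μ (w.mi * w.mi) (Ak (vv S) S.w k (Ak (vv S) S.w j b)))) (fun j _ =>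
        Finset.sum_nonneg fun k _ => mul_nonneg (cc_pos j).le
          (mul_nonneg (cc_pos k).le (hn _))) (Finset.mem_univ j))
    exact Finset.single_le_sum (f := fun k => cc j * (cc k *
      nn μ (w.mi * w.mi) (Ak (vv S) S.w k (Ak (vv S) S.w j b)))) (fun k _ =>
        mul_nonneg (cc_pos j).le (mul_nonneg (cc_pos k).le (hn _))) (Finset.mem_univ k)
  have h2 : 1 / 16 * nn μ (w.mi * w.mi) (Ak (vv S) S.w k (Ak (vv S) S.w j b)) ≤
      cc j * (cc k * nn μ (w.mi * w.mi) (Ak (vv S) S.w k (Ak (vv S) S.w j b))) := by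
    rw [← mul_assoc]
    refine mul_le_mul_of_nonneg_right ?_ (hn _)
    have := cc_ge k
    have := cc_ge j
    nlinarith
  have h3 : nn μ (w.mi * w.mi) (So S b) ≤ nn μ 1 (So S b) := by
    refine nn_mono μ (Z := Set.univ) (Set.subset_univ _) fun z _ => ?_
    rw [sm_mul, sm_one]
    have h8 := mi_pos w z
    have h9 := mi_le w z
    nlinarith
  have h4 := Q_ge (ι := ι) hz.L1
  have h5 := nn_nonneg μ one_nn (So S b)
  have h6 := nnee μ (S := S) b
  set Q := QQ (Fintype.card ι) Lam with hQ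
  have h7 : 58 * Q * ∑ j, cc j * nn μ (S.e * w.mi) (Ak (vv S) S.w j b) ≤
      58 * Q * (nn μ 1 (So S b) + 41 * Q * nn μ (S.e * S.e) b) := by
    gcongr
  unfold TB
  have h8 : nn μ 1 (So S b) ≤ Q * nn μ 1 (So S b) := le_mul_of_one_le_left h5 h4
  have h9 : Q * nn μ 1 (So S b) ≤ Q ^ 2 * nn μ 1 (So S b) := by
    gcongr; nlinarith
  nlinarith

/-- All products of two first order operators. -/
theorem B2all (hz : Zn S Z N Lam eps) (hc : Zc S Z N Lam) (w : Wd S) {b : TE E} (hb : Su Z b)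
    (k j : ι ⊕ ι) :
    nn μ (w.mi * w.mi) (Ak (vv S) S.w k (Ak (vv S) S.w j b)) ≤
      235008 * QQ (Fintype.card ι) Lam ^ 2 * TB μ S b ∧
    nn μ (w.mi * w.mi) (Ak (vv S) S.w k (As (vv S) S.w j b)) ≤
      235008 * QQ (Fintype.card ι) Lam ^ 2 * TB μ S b ∧
    nn μ (w.mi * w.mi) (As (vv S) S.w k (Ak (vv S) S.w j b)) ≤
      235008 * QQ (Fintype.card ι) Lam ^ 2 * TB μ S b ∧
    nn μ (w.mi * w.mi) (As (vv S) S.w k (As (vv S) S.w j b)) ≤
      235008 * QQ (Fintype.card ι) Lam ^ 2 * TB μ S b := by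
  have a1 := B2kj μ hz hc w hb k j
  have a2 := star_in μ hz hc w (wt_mimi w).1 k j hb
  have a3 := star μ hz hc w (wt_mimi w).1 k (su_Ak (vv S) S.w j hb)
  have a4 := star μ hz hc w (wt_mimi w).1 k (su_As (vv S) S.w j hb)
  rw [mimi_emu] at a2 a3 a4
  have b1 := B1k μ hz hc w hb k
  have b2 := B1k μ hz hc w hb j
  have b3 := B1ks μ hz hc w hb j
  have b4 : nn μ (w.mi * w.mi * (S.e * S.e)) b ≤ TB μ S b := by
    have : nn μ (w.mi * w.mi * (S.e * S.e)) b ≤ nn μ (S.e * S.e) b :=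
      nn_mono μ hb fun z _ => by
        simp only [sm_mul]
        have h8 := mi_pos w z
        have h9 := mi_le w z
        have : (w.mi : E → ℝ) z * (w.mi : E → ℝ) z ≤ 1 := by nlinarith
        exact mul_le_of_le_one_left (mul_self_nonneg _) this
    have h5 := nn_nonneg μ one_nn (So S b)
    unfold TB; linarith
  have h4 := Q_ge (ι := ι) hz.L1
  have hT := TB_nn μ (S := S) b
  set Q := QQ (Fintype.card ι) Lam with hQ
  set T := TB μ S b with hTd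
  have hQT : Q * T ≤ Q ^ 2 * T := by
    gcongr; nlinarith
  have hQT0 : 0 ≤ Q ^ 2 * T := by positivity
  have c1 : Q * nn μ (S.e * w.mi) (Ak (vv S) S.w k b) ≤ 164 * (Q ^ 2 * T) := by
    calc _ ≤ Q * (164 * Q * T) := by gcongr
      _ = _ := by ring
  have c2 : Q * nn μ (S.e * w.mi) (Ak (vv S) S.w j b) ≤ 164 * (Q ^ 2 * T) := by
    calc _ ≤ Q * (164 * Q * T) := by gcongr
      _ = _ := by ring
  have c3 : Q * nn μ (S.e * w.mi) (As (vv S) S.w j b) ≤ 336 * (Q ^ 2 * T) := by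
    calc _ ≤ Q * (336 * Q * T) := by gcongr
      _ = _ := by ring
  have c4 : Q * nn μ (w.mi * w.mi * (S.e * S.e)) b ≤ Q ^ 2 * T := by
    calc _ ≤ Q * T := by gcongr
      _ ≤ _ := hQT
  refine ⟨?_, ?_, ?_, ?_⟩
  · linarith
  · linarith
  · linarith
  · linarith

end Vale.Agent.P088.R2.H856.B
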