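import Vale.Agent.P088.R2.H856.B.Bnd

/-!
# Zone B1: the list of bounds `Bd`, bounds of `c`
-/

open MeasureTheory Set

noncomputable section

namespace Vale.Agent.P088.R2.H856.B

open Vale.Agent.P088.R2.H464.EP Vale.Agent.P088.R2.H961.B.T Vale.Agent.P088.R2.H516.B

variable {ι E : Type} [Fintype ι] [DecidableEq ι] [NormedAddCommGroup E] [NormedSpace ℝ E]
  {S : Dat ι E} {w : Wd S} {Z : Set E} {N : Sm E} {Lam eps : ℝ}

/-! ## Convexity -/

theorem conv_pw (hc : Zc S Z N Lam) (w : Wd S) {z : E} (h : z ∈ Z) :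
    0 ≤ ∑ i, (ds (S.b i) (S.e * w.mi * S.g i) : E → ℝ) z := by
  have h4 := w.he z
  have h6 := mu_val (S := S) z
  have h7 := mi_val w z
  have h8 := mi_pos w z
  have h10 := qq_nn (S := S) z
  have e1 : ∀ i, (ds (S.b i) (S.e * w.mi * S.g i) : E → ℝ) z =
      (S.e : E → ℝ) z * (w.mi : E → ℝ) z * (2 * (w.mi : E → ℝ) z *
        ((S.l1 i : E → ℝ) z * (S.φ1 i : E → ℝ) z +
          (S.l1 i : E → ℝ) z ^ 2 * ((S.e : E → ℝ) z * (S.qq : E → ℝ) z)) +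
        (S.φ2 i i : E → ℝ) z + ((S.l2 i i : E → ℝ) z + 2 * (S.l1 i : E → ℝ) z ^ 2) *
          ((S.e : E → ℝ) z * (S.qq : E → ℝ) z)) := fun i => by
    have a1 := Ld.mul S (ld_e S) (ld_mi S w) (Sum.inr i)
    beta_reduce at a1
    simp only [vv, le, lm, Sum.elim_inr] at a1
    rw [ds_mul, a1, S.bg]
    have a2 : (S.g i : E → ℝ) z = (S.φ1 i : E → ℝ) z +
      (S.l1 i : E → ℝ) z * ((S.e : E → ℝ) z * (S.qq : E → ℝ) z) := by
      change (S.φ1 i : E → ℝ) z + (S.l1 i : E → ℝ) z * (S.e : E → ℝ) z * (S.qq : E → ℝ) z = _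
      ring
    simp only [sm_add, sm_mul, sm_two, sm_neg, a2]
    have a3 : (S.e : E → ℝ) z * (S.qq : E → ℝ) z * (w.mi : E → ℝ) z =
        1 - (w.mi : E → ℝ) z := by
      rw [← h7, h6]; ring
    generalize (S.φ1 i : E → ℝ) z = f
    generalize (S.l1 i : E → ℝ) z = l
    have a4 : 2 * (l * ((S.e : E → ℝ) z * (S.qq : E → ℝ) z)) * (w.mi : E → ℝ) z =
        2 * l * ((S.e : E → ℝ) z * (S.qq : E → ℝ) z * (w.mi : E → ℝ) z) := by ring
    rw [a4, a3]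
    ring
  simp only [e1]
  rw [← Finset.mul_sum]
  refine mul_nonneg (mul_nonneg h4.le h8.le) ?_
  rw [Finset.sum_add_distrib, Finset.sum_add_distrib, ← Finset.mul_sum, Finset.sum_add_distrib,
    ← Finset.sum_mul, ← Finset.sum_mul, Finset.sum_add_distrib, ← Finset.mul_sum]
  have c1 := hc.f2 z h
  have c2 := hc.l2 z h
  have c3 := hc.lf z h
  have c4 : 0 ≤ ∑ i, (S.l1 i : E → ℝ) z ^ 2 := Finset.sum_nonneg fun i _ => sq_nonneg _
  positivity

variable [MeasurableSpace E] [BorelSpace E] [FiniteDimensional ℝ E]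
  (μ : Measure E) [μ.IsAddHaarMeasure]

theorem Ks_fn (i : ι) (c : TE E) (z : E) : (S.Ks i c).fn z =
    (S.g i : E → ℝ) z * c.fn z - (dv (S.b i) c).fn z := rfl

theorem K_fn (i : ι) (c : TE E) (z : E) : (S.K i c).fn z =
    (dv (S.b i) c).fn z + (S.g i : E → ℝ) z * c.fn z := rfl

theorem conv1 (hc : Zc S Z N Lam) (w : Wd S) {c : TE E} (hs : Su Z c) :
    ∑ i, nn μ (S.e * w.mi) (ml (S.g i) c) ≤ ∑ i, nn μ (S.e * w.mi) (S.Ks i c) := by
  have e1 : ∑ i, nn μ (S.e * w.mi) (ml (S.g i) c) =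
      In μ (∑ i, mS (ml (S.e * w.mi) (ml (S.g i) c)) (ml (S.g i) c)) := by
    rw [map_sum]; rfl
  have e2 : ∑ i, nn μ (S.e * w.mi) (S.Ks i c) =
      In μ (∑ i, mS (ml (S.e * w.mi) (S.Ks i c)) (S.Ks i c)) := by
    rw [map_sum]; rfl
  rw [e1, e2]
  refine In_le μ (H := ∑ i, dv (S.b i) (mS (ml (S.e * w.mi * S.g i) c) c)) ?_ fun z => ?_
  · rw [map_sum]
    exact Finset.sum_eq_zero fun k _ => In_dv μ _ _
  · simp only [dv_mS, dv_mlS]
    simp only [sum_fn, TE.add_fn, mS_fn, ml_apply, Ks_fn, sm_mul]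
    rw [← Finset.sum_add_distrib]
    by_cases hz : z ∈ Z
    · have h1 := conv_pw hc w hz
      have h2 : 0 ≤ (S.e : E → ℝ) z * (w.mi : E → ℝ) z := by
        have := w.he z; have := mi_pos w z; positivity
      have h3 : 0 ≤ ∑ i, ((S.e : E → ℝ) z * (w.mi : E → ℝ) z * (dv (S.b i) c).fn z ^ 2 +
          (ds (S.b i) (S.e * w.mi * S.g i) : E → ℝ) z * (c.fn z * c.fn z)) := by
        rw [Finset.sum_add_distrib, ← Finset.sum_mul]
        refine add_nonneg (Finset.sum_nonneg fun i _ => mul_nonneg h2 (sq_nonneg _))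
          (mul_nonneg h1 (mul_self_nonneg _))
      have h4 := le_add_of_nonneg_right (a := ∑ i, (S.e : E → ℝ) z * (w.mi : E → ℝ) z *
        ((S.g i : E → ℝ) z * c.fn z) * ((S.g i : E → ℝ) z * c.fn z)) h3
      rw [← Finset.sum_add_distrib] at h4
      refine h4.trans (le_of_eq (Finset.sum_congr rfl fun i _ => ?_))
      ring
    · have h1 : c.fn z = 0 := su_zero hs hz
      have h2 : ∀ i, (dv (S.b i) c).fn z = 0 := fun i => su_zero (su_dv hs _) hz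
      simp [h1, h2]

theorem conv2 (hc : Zc S Z N Lam) (w : Wd S) {c : TE E} (hs : Su Z c) :
    ∑ i, nn μ (S.e * w.mi) (S.K i c) ≤ ∑ i, nn μ (S.e * w.mi) (S.Ks i c) := by
  have e1 : ∑ i, nn μ (S.e * w.mi) (S.K i c) =
      In μ (∑ i, mS (ml (S.e * w.mi) (S.K i c)) (S.K i c)) := by
    rw [map_sum]; rfl
  have e2 : ∑ i, nn μ (S.e * w.mi) (S.Ks i c) =
      In μ (∑ i, mS (ml (S.e * w.mi) (S.Ks i c)) (S.Ks i c)) := by
    rw [map_sum]; rfl
  rw [e1, e2]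
  refine In_le μ (H := ∑ i, dv (S.b i) ((2 : ℝ) • mS (ml (S.e * w.mi * S.g i) c) c)) ?_
    fun z => ?_
  · rw [map_sum]
    exact Finset.sum_eq_zero fun k _ => In_dv μ _ _
  · simp only [map_smul, dv_mS, dv_mlS]
    simp only [sum_fn, TE.add_fn, TE.smul_fn, mS_fn, ml_apply, Ks_fn, K_fn, sm_mul]
    rw [← Finset.sum_add_distrib]
    by_cases hz : z ∈ Z
    · have h1 := conv_pw hc w hz
      have h3 : 0 ≤ ∑ i,
          (2 * (ds (S.b i) (S.e * w.mi * S.g i) : E → ℝ) z * (c.fn z * c.fn z)) := by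
        rw [← Finset.sum_mul, ← Finset.mul_sum]
        exact mul_nonneg (mul_nonneg (by norm_num) h1) (mul_self_nonneg _)
      have h4 := le_add_of_nonneg_right (a := ∑ i, (S.e : E → ℝ) z * (w.mi : E → ℝ) z *
        ((dv (S.b i) c).fn z + (S.g i : E → ℝ) z * c.fn z) *
          ((dv (S.b i) c).fn z + (S.g i : E → ℝ) z * c.fn z)) h3
      rw [← Finset.sum_add_distrib] at h4
      refine h4.trans (le_of_eq (Finset.sum_congr rfl fun i _ => ?_))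
      ring
    · have h1 : c.fn z = 0 := su_zero hs hz
      have h2 : ∀ i, (dv (S.b i) c).fn z = 0 := fun i => su_zero (su_dv hs _) hz
      simp [h1, h2]

/-! ## First and second order, without `K` -/

theorem nn_one (f : TE E) : nn μ 1 f = ip μ f f := by
  rw [nn, map_one]; rfl

theorem c1s (i : ι) (c : TE E) :
    nn μ 1 (S.Ds i c) = nn μ 1 (S.D i c) + 2 * nn μ S.e c := by
  rw [nn_one, nn_one, (S.adj_D μ i).symm (c) (S.Ds i c)]
  have h := LinearMap.congr_fun (S.D_Ds i i) c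
  rw [if_pos rfl] at h
  simp only [Module.End.mul_apply, LinearMap.add_apply, LinearMap.smul_apply] at h
  rw [h, map_add, map_smul, ← S.adj_D μ i c (S.D i c), smul_eq_mul, nn, ip_comm μ (ml S.e c) c]
  rfl

/-- The norms of `c` in the core. -/
def XC (S : Dat ι E) (c : TE E) : ℝ := ∑ i, nn μ 1 (S.D i c) + nn μ S.e c

/-- `∫ (μ / E) |D² c|²`. -/
def YC (S : Dat ι E) (c : TE E) : ℝ := nn μ (S.e' * mu S) (S.D2 c)

theorem nne (w : Wd S) (c : TE E) : 0 ≤ nn μ S.e c := nn_nonneg μ (fun z => (w.he z).le) c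

theorem XC_D (w : Wd S) (i : ι) (c : TE E) : nn μ 1 (S.D i c) ≤ XC μ S c := by
  have h1 := Finset.single_le_sum (f := fun i => nn μ 1 (S.D i c))
    (fun i _ => nn_nonneg μ one_nn _) (Finset.mem_univ i)
  have h2 := nne μ w c
  unfold XC
  linarith

theorem XC_sum (c : TE E) (w : Wd S) : ∑ i, nn μ 1 (S.D i c) ≤ XC μ S c := by
  have h2 := nne μ w c
  unfold XC
  linarith

theorem XC_e (c : TE E) : nn μ S.e c ≤ XC μ S c := by
  have h1 : 0 ≤ ∑ i, nn μ 1 (S.D i c) := Finset.sum_nonneg fun i _ => nn_nonneg μ one_nn _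
  unfold XC
  linarith

theorem XC_nn (w : Wd S) (c : TE E) : 0 ≤ XC μ S c := (nne μ w c).trans (XC_e μ c)

theorem XC_Ds (w : Wd S) (i : ι) (c : TE E) : nn μ 1 (S.Ds i c) ≤ 2 * XC μ S c := by
  rw [c1s]
  have h1 := Finset.single_le_sum (f := fun i => nn μ 1 (S.D i c))
    (fun i _ => nn_nonneg μ one_nn _) (Finset.mem_univ i)
  have h2 := nne μ w c
  have h3 : 0 ≤ nn μ 1 (S.D i c) := nn_nonneg μ one_nn _
  unfold XC
  linarith

theorem YC_nn (w : Wd S) (c : TE E) : 0 ≤ YC μ S c := nn_nonneg μ (wt_e'mu w).1 _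

theorem C2dd (hz : Zn S Z N Lam eps) (hc : Zc S Z N Lam) (w : Wd S) {c : TE E} (hs : Su Z c)
    (k j : ι) : nn μ (S.e' * w.mi) (S.D k (S.D j c)) ≤
      58 * QQ (Fintype.card ι) Lam * (YC μ S c + XC μ S c) := by
  have h := L2D μ hz hc (wt_e'mi w) hs
  rw [e'mi_emu] at h
  have hn : ∀ h' : TE E, 0 ≤ nn μ (S.e' * w.mi) h' := nn_nonneg μ (wt_e'mi w).1
  have h1 : nn μ (S.e' * w.mi) (S.D k (S.D j c)) ≤
      ∑ j, ∑ k, nn μ (S.e' * w.mi) (S.D k (S.D j c)) := by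
    refine le_trans ?_ (Finset.single_le_sum (f := fun j => ∑ k,
      nn μ (S.e' * w.mi) (S.D k (S.D j c))) (fun j _ =>
        Finset.sum_nonneg fun k _ => hn _) (Finset.mem_univ j))
    exact Finset.single_le_sum (f := fun k =>
      nn μ (S.e' * w.mi) (S.D k (S.D j c))) (fun k _ => hn _) (Finset.mem_univ k)
  have h3 : nn μ (S.e' * w.mi) (S.D2 c) ≤ YC μ S c := by
    refine nn_mono μ (Z := Set.univ) (Set.subset_univ _) fun z _ => ?_
    simp only [sm_mul]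
    have h8 := mi_le w z
    have h9 := mu_ge w z
    have h10 := e'_pos w z
    gcongr
    linarith
  have h4 := Q_ge (ι := ι) hz.L1
  have h5 := YC_nn μ w c
  have h6 := XC_sum μ c w
  set Q := QQ (Fintype.card ι) Lam with hQ
  have h7 : 58 * Q * ∑ j, nn μ 1 (S.D j c) ≤ 58 * Q * XC μ S c := by gcongr
  nlinarith

theorem C2all (hz : Zn S Z N Lam eps) (hc : Zc S Z N Lam) (w : Wd S) {c : TE E} (hs : Su Z c)
    (k j : ι) :
    nn μ (S.e' * w.mi) (S.D k (S.D j c)) ≤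
      484 * QQ (Fintype.card ι) Lam * (YC μ S c + XC μ S c) ∧
    nn μ (S.e' * w.mi) (S.D k (S.Ds j c)) ≤
      484 * QQ (Fintype.card ι) Lam * (YC μ S c + XC μ S c) ∧
    nn μ (S.e' * w.mi) (S.Ds k (S.D j c)) ≤
      484 * QQ (Fintype.card ι) Lam * (YC μ S c + XC μ S c) ∧
    nn μ (S.e' * w.mi) (S.Ds k (S.Ds j c)) ≤
      484 * QQ (Fintype.card ι) Lam * (YC μ S c + XC μ S c) := by
  have a1 := C2dd μ hz hc w hs k j
  have a2 := star_in μ hz hc w (wt_e'mi w).1 (Sum.inl k) (Sum.inl j) hs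
  have a3 := star μ hz hc w (wt_e'mi w).1 (Sum.inl k) (su_Ak (vv S) S.w (Sum.inl j) hs)
  have a4 := star μ hz hc w (wt_e'mi w).1 (Sum.inl k) (su_As (vv S) S.w (Sum.inl j) hs)
  rw [e'mi_emu] at a2 a3 a4
  rw [As_inl, Ak_inl, Ak_inl] at a2
  rw [As_inl, Ak_inl, Ak_inl] at a3
  rw [As_inl, As_inl, Ak_inl] at a4
  have b1 := XC_D μ w k c
  have b2 := XC_D μ w j c
  have b3 := XC_Ds μ w j c
  have b4 : nn μ (S.e' * w.mi * (S.e * S.e)) c ≤ XC μ S c := by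
    refine le_trans ?_ (XC_e μ c)
    refine nn_mono μ hs fun z _ => ?_
    have e1 : S.e' * w.mi * (S.e * S.e) = S.e * S.e' * (S.e * w.mi) := by ring
    rw [e1, S.inv, one_mul, sm_mul]
    exact mul_le_of_le_one_right (w.he z).le (mi_le w z)
  have h4 := Q_ge (ι := ι) hz.L1
  have h5 := YC_nn μ w c
  have h6 := XC_nn μ w c
  set Q := QQ (Fintype.card ι) Lam with hQ
  set X := XC μ S c with hX
  set Y := YC μ S c with hY
  have hQ0 : 0 ≤ Q := by linarith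
  have c1 := mul_le_mul_of_nonneg_left b1 hQ0
  have c2 := mul_le_mul_of_nonneg_left b2 hQ0
  have c3 := mul_le_mul_of_nonneg_left b3 hQ0
  have c4 := mul_le_mul_of_nonneg_left b4 hQ0
  have c5 : 0 ≤ Q * Y := by positivity
  have c6 : 0 ≤ Q * X := by positivity
  refine ⟨?_, ?_, ?_, ?_⟩
  · linarith
  · linarith
  · linarith
  · linarith

/-! ## The correction `z` -/

/-- `z_i = (1/2) D_i^* ((1/E) l.D^* c) - (1/4) D^{*2} ((l_i / E) c)`. -/
def zz (S : Dat ι E) (c : TE E) (i : ι) : TE E :=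
  (1 / 2 : ℝ) • S.Ds i (S.EI (lDs S c)) - (1 / 4 : ℝ) • S.Ds2 (S.L i (S.EI c))

theorem nn_EI (w : Wd S) (f : TE E) : nn μ (S.e * w.mi) (S.EI f) = nn μ (S.e' * w.mi) f := by
  rw [Dat.EI, nn_ml]
  have e1 : S.e * w.mi * S.e' * S.e' = S.e * S.e' * (S.e' * w.mi) := by ring
  rw [e1, S.inv, one_mul]

theorem nn_L (hz : Zn S Z N Lam eps) {θ : Sm E} (hθ : ∀ z, 0 ≤ (θ : E → ℝ) z) (i : ι) {f : TE E}
    (hf : Su Z f) : nn μ θ (S.L i f) ≤ Lam ^ 2 * nn μ θ f := by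
  rw [Dat.L, nn_ml, ← nn_smul_w]
  refine nn_mono μ hf fun z h => ?_
  have h2 := hz.l1 z h i
  have h3 : (S.l1 i : E → ℝ) z ^ 2 ≤ Lam ^ 2 := by
    rw [← sq_abs]; gcongr
  have h4 := hθ z
  simp only [sm_mul, sm_smul]
  calc _ = (θ : E → ℝ) z * (S.l1 i : E → ℝ) z ^ 2 := by ring
    _ ≤ (θ : E → ℝ) z * Lam ^ 2 := by gcongr
    _ = _ := by ring

theorem su_Ds (i : ι) {f : TE E} (hf : Su Z f) : Su Z (S.Ds i f) := by
  rw [← As_inl]; exact su_As _ _ _ hf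

theorem su_D (i : ι) {f : TE E} (hf : Su Z f) : Su Z (S.D i f) := by
  rw [← Ak_inl]; exact su_Ak _ _ _ hf

/-- `n² Lam² ≤ Q²`. -/
theorem nQ (hL : 1 ≤ Lam) : (Fintype.card ι : ℝ) ^ 2 * Lam ^ 2 ≤
    QQ (Fintype.card ι) Lam ^ 2 := by
  have hn : (0 : ℝ) ≤ Fintype.card ι := Nat.cast_nonneg _
  have hL2 : 1 ≤ Lam ^ 2 := one_le_pow₀ hL
  unfold QQ
  have h1 : (Fintype.card ι : ℝ) ^ 2 ≤ (1 + Fintype.card ι) ^ 2 := by gcongr; linarith
  have h2 : Lam ^ 2 ≤ (Lam ^ 2) ^ 2 := by nlinarith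
  calc _ ≤ (1 + (Fintype.card ι : ℝ)) ^ 2 * (Lam ^ 2) ^ 2 := by gcongr
    _ = _ := by ring

/-- `(l . D^*) f`-type sums. -/
theorem nn_lsum (hz : Zn S Z N Lam eps) {θ : Sm E} (hθ : ∀ z, 0 ≤ (θ : E → ℝ) z)
    {f : ι → TE E} (hf : ∀ i, Su Z (f i)) {B : ℝ} (hB : ∀ i, nn μ θ (f i) ≤ B) :
    nn μ θ (∑ i, S.L i (f i)) ≤ (Fintype.card ι : ℝ) ^ 2 * Lam ^ 2 * B := by
  refine (nn_sum_le μ _ hθ _).trans ?_
  have h1 : ∑ i, nn μ θ (S.L i (f i)) ≤ ∑ _i : ι, Lam ^ 2 * B :=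
    Finset.sum_le_sum fun i _ => (nn_L μ hz hθ i (hf i)).trans
      (mul_le_mul_of_nonneg_left (hB i) (sq_nonneg _))
  rw [Finset.sum_const, Finset.card_univ, nsmul_eq_mul] at h1
  rw [Finset.card_univ]
  calc _ ≤ (Fintype.card ι : ℝ) * (Fintype.card ι * (Lam ^ 2 * B)) :=
        mul_le_mul_of_nonneg_left h1 (Nat.cast_nonneg _)
    _ = _ := by ring

theorem nn_zz (hz : Zn S Z N Lam eps) (hc : Zc S Z N Lam) (w : Wd S) {c : TE E} (hs : Su Z c)
    (i : ι) : nn μ (S.e * w.mi) (zz S c i) ≤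
      303 * QQ (Fintype.card ι) Lam ^ 3 * (YC μ S c + XC μ S c) := by
  set Q := QQ (Fintype.card ι) Lam with hQ
  set U := YC μ S c + XC μ S c with hU
  have hU0 : 0 ≤ U := add_nonneg (YC_nn μ w c) (XC_nn μ w c)
  have hQ1 := Q_ge (ι := ι) hz.L1
  have e1 : S.Ds i (S.EI (lDs S c)) = S.EI (∑ j, S.L j (S.Ds i (S.Ds j c))) := by
    have h1 := LinearMap.congr_fun (S.Ds_EI i) (lDs S c)
    simp only [Module.End.mul_apply] at h1
    rw [h1, lDs, LinearMap.sum_apply, map_sum]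
    congr 1
    refine Finset.sum_congr rfl fun j _ => ?_
    have h2 := LinearMap.congr_fun (S.Ds_L i j) (S.Ds j c)
    simp only [Module.End.mul_apply] at h2
    rw [← h2]; rfl
  have e2 : S.Ds2 (S.L i (S.EI c)) = S.EI (S.L i (∑ j, S.Ds j (S.Ds j c))) := by
    have h1 := LinearMap.congr_fun (S.Ds2_ml (fun k => S.al1 k i)) (ml S.e' c)
    have h2 := LinearMap.congr_fun (S.Ds2_ml S.ae') c
    have h3 := LinearMap.congr_fun (mlc (S.l1 i) S.e') (S.Ds2 c)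
    simp only [Module.End.mul_apply] at h1 h2 h3
    rw [Dat.L, Dat.EI, h1, h2, h3]
    congr 2
    rw [Dat.Ds2, LinearMap.sum_apply]; rfl
  have s1 : ∀ j, Su Z (S.Ds i (S.Ds j c)) := fun j => su_Ds i (su_Ds j hs)
  have s2 : ∀ j, Su Z (S.Ds j (S.Ds j c)) := fun j => su_Ds j (su_Ds j hs)
  have b1 : nn μ (S.e' * w.mi) (∑ j, S.L j (S.Ds i (S.Ds j c))) ≤
      (Fintype.card ι : ℝ) ^ 2 * Lam ^ 2 * (484 * Q * U) :=
    nn_lsum μ hz (wt_e'mi w).1 s1 fun j => (C2all μ hz hc w hs i j).2.2.2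
  have b2 : nn μ (S.e' * w.mi) (S.L i (∑ j, S.Ds j (S.Ds j c))) ≤
      (Fintype.card ι : ℝ) ^ 2 * Lam ^ 2 * (484 * Q * U) := by
    rw [map_sum]
    refine (nn_sum_le μ _ (wt_e'mi w).1 _).trans ?_
    have h1 : ∑ j, nn μ (S.e' * w.mi) (S.L i (S.Ds j (S.Ds j c))) ≤
        ∑ _j : ι, Lam ^ 2 * (484 * Q * U) :=
      Finset.sum_le_sum fun j _ => (nn_L μ hz (wt_e'mi w).1 i (s2 j)).trans
        (mul_le_mul_of_nonneg_left (C2all μ hz hc w hs j j).2.2.2 (sq_nonneg _))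
    rw [Finset.sum_const, Finset.card_univ, nsmul_eq_mul] at h1
    rw [Finset.card_univ]
    calc _ ≤ (Fintype.card ι : ℝ) * (Fintype.card ι * (Lam ^ 2 * (484 * Q * U))) :=
          mul_le_mul_of_nonneg_left h1 (Nat.cast_nonneg _)
      _ = _ := by ring
  have b3 := nn_sub_le μ (wt_emi w).1 ((1 / 2 : ℝ) • S.Ds i (S.EI (lDs S c)))
    ((1 / 4 : ℝ) • S.Ds2 (S.L i (S.EI c)))
  rw [nn_smul, nn_smul, e1, e2, nn_EI, nn_EI] at b3
  have b4 := nQ (ι := ι) hz.L1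
  have b5 : (Fintype.card ι : ℝ) ^ 2 * Lam ^ 2 * (484 * Q * U) ≤ Q ^ 2 * (484 * Q * U) := by
    gcongr
  have b6 : 0 ≤ Q ^ 3 * U := by positivity
  unfold zz
  rw [e1, e2]
  refine b3.trans ?_
  have b7 : Q ^ 2 * (484 * Q * U) = 484 * (Q ^ 3 * U) := by ring
  rw [b7] at b5
  linarith

end Vale.Agent.P088.R2.H856.B
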