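import Vale.Agent.P088.R2.H961.B.EnT

/-!
# Energy inequalities, second order, one direction

Continuation of helper961's `EnT`: `A_k = dv (v k) + ∂_k W`, `S = ∑ c_k A_k²`.

* `W3`: `∑_k c_k ∫ θ (A_k A_j h)² ≤ (10 / c_j) ∫ θ (S h)² + ∫ (6 g + 20 θ m) (A_j h)²`;
* `W4`: the same for `A_j^* h`;
* `L5`: `∑_j ⟨g A_j A_j h, λ.A h⟩`, exact.
-/

open MeasureTheory Set

noncomputable section

namespace Vale.Agent.P088.R2.H856.B

open Vale.Agent.P088.R2.H464.EP Vale.Agent.P088.R2.H961.B Vale.Agent.P088.R2.H961.B.T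

/-! ## Pointwise inequalities -/

section pw

variable {κ : Type*} [Fintype κ]

theorem w3_pw {c : κ → ℝ} (hc : ∀ k, 0 ≤ c k) {w t : κ → ℝ} {θ m g : ℝ} (hθ : 0 ≤ θ)
    (hg : 0 ≤ g) (hm : ∑ k, c k * w k ^ 2 ≤ m) (ht : ∑ k, c k * t k ^ 2 ≤ g * θ) (j : κ)
    (hj : 0 < c j) (x y : κ → ℝ) (u s σ : ℝ) (hσ : σ = ∑ k, c k * y k) :
    ∑ k, c k * (θ * x k ^ 2) ≤ 10 / c j * (θ * s ^ 2) + (6 * g + 20 * (θ * m)) * u ^ 2 +
      (∑ k, 4 * (c k * (θ * x k ^ 2 - 2 * (θ * w k * u * x k) + u * t k * x k +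
        θ * u * y k)) -
        4 * (θ * x j * s - 2 * (θ * w j * u * s) + u * t j * s + θ * u * σ)) := by
  have hm0 : 0 ≤ m := (Finset.sum_nonneg fun k _ => mul_nonneg (hc k) (sq_nonneg _)).trans hm
  have b2 := (cr hc ht x u (1 / 2) (by norm_num) hθ (b := 2 * (g * u ^ 2)) (by positivity)
    (by ring_nf; exact le_rfl)).2
  have b3 := (cr hc hm x (2 * (θ * u)) (1 / 2) (by norm_num) hθ (b := 8 * (θ * m * u ^ 2))
    (by positivity) (by ring_nf; exact le_rfl)).1
  have e1 : ∑ k, 4 * (c k * (θ * x k ^ 2 - 2 * (θ * w k * u * x k) + u * t k * x k +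
        θ * u * y k)) = 4 * (θ * ∑ k, c k * x k ^ 2) -
      4 * (2 * (θ * u) * ∑ k, c k * (w k * x k)) + 4 * (u * ∑ k, c k * (t k * x k)) +
      4 * (θ * u * σ) := by
    rw [hσ]
    simp only [Finset.mul_sum]
    rw [← Finset.sum_sub_distrib, ← Finset.sum_add_distrib, ← Finset.sum_add_distrib]
    exact Finset.sum_congr rfl fun k _ => by ring
  have e0 : ∑ k, c k * (θ * x k ^ 2) = θ * ∑ k, c k * x k ^ 2 := by
    rw [Finset.mul_sum]; exact Finset.sum_congr rfl fun k _ => by ring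
  -- the diagonal terms
  have hxj : c j * x j ^ 2 ≤ ∑ k, c k * x k ^ 2 :=
    Finset.single_le_sum (f := fun k => c k * x k ^ 2)
      (fun k _ => mul_nonneg (hc k) (sq_nonneg _)) (Finset.mem_univ j)
  have hwj : c j * w j ^ 2 ≤ m :=
    (Finset.single_le_sum (f := fun k => c k * w k ^ 2)
      (fun k _ => mul_nonneg (hc k) (sq_nonneg _)) (Finset.mem_univ j)).trans hm
  have htj : c j * t j ^ 2 ≤ g * θ :=
    (Finset.single_le_sum (f := fun k => c k * t k ^ 2)
      (fun k _ => mul_nonneg (hc k) (sq_nonneg _)) (Finset.mem_univ j)).trans ht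
  have d1 := (ag (U := θ * x j * s) (A := 1 / 2 * (θ * (c j * x j ^ 2)))
    (B := 2 / c j * (θ * s ^ 2)) (by positivity) (by positivity) (by
      have : (θ * x j * s) ^ 2 = 1 / 2 * (θ * (c j * x j ^ 2)) * (2 / c j * (θ * s ^ 2)) := by
        field_simp
      exact this.le)).1
  have d2 := (ag (U := 2 * (θ * w j * u * s)) (A := 2 / c j * (θ * s ^ 2))
    (B := 2 * (θ * m * u ^ 2)) (by positivity) (by positivity) (by
      calc (2 * (θ * w j * u * s)) ^ 2 = 4 / c j * (θ ^ 2 * s ^ 2 * u ^ 2) * (c j * w j ^ 2) := by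
            field_simp
            ring
        _ ≤ 4 / c j * (θ ^ 2 * s ^ 2 * u ^ 2) * m := by gcongr
        _ = _ := by ring)).2
  have d3 := (ag (U := u * t j * s) (A := 1 / c j * (θ * s ^ 2)) (B := g * u ^ 2)
    (by positivity) (by positivity) (by
      by_cases h0 : θ = 0
      · have h1 : c j * t j ^ 2 ≤ 0 := by simpa [h0] using htj
        have h2 : t j = 0 := by
          have : t j ^ 2 ≤ 0 := by
            by_contra hh
            push Not at hh
            exact absurd (mul_pos hj hh) (not_lt.2 h1)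
          exact pow_eq_zero_iff (two_ne_zero) |>.1 (le_antisymm this (sq_nonneg _))
        simp [h2, h0]
      · calc (u * t j * s) ^ 2 = 1 / c j * (u ^ 2 * s ^ 2) * (c j * t j ^ 2) := by
              field_simp
          _ ≤ 1 / c j * (u ^ 2 * s ^ 2) * (g * θ) := by gcongr
          _ = _ := by ring)).1
  have hX : θ * (c j * x j ^ 2) ≤ θ * ∑ k, c k * x k ^ 2 := by gcongr
  rw [e0, e1]
  have f1 : 10 / c j * (θ * s ^ 2) =
      2 * (2 / c j * (θ * s ^ 2)) + 2 * (2 / c j * (θ * s ^ 2)) +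
        2 * (1 / c j * (θ * s ^ 2)) := by ring
  have hA : 0 ≤ θ * ∑ k, c k * x k ^ 2 :=
    mul_nonneg hθ (Finset.sum_nonneg fun k _ => mul_nonneg (hc k) (sq_nonneg _))
  rw [f1]
  nlinarith [b2, b3, d1, d2, d3, hX, hA]

theorem w4_pw {c : κ → ℝ} (hc : ∀ k, 0 ≤ c k) {w t : κ → ℝ} {θ m g : ℝ} (hθ : 0 ≤ θ)
    (hg : 0 ≤ g) (hm : ∑ k, c k * w k ^ 2 ≤ m) (ht : ∑ k, c k * t k ^ 2 ≤ g * θ) (j : κ)
    (hj : 0 < c j) (x y : κ → ℝ) (u s σ ρ : ℝ) (hσ : σ + ρ = ∑ k, c k * y k) :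
    ∑ k, c k * (θ * x k ^ 2) + 4 * (θ * u * ρ) ≤
      6 / c j * (θ * s ^ 2) + (6 * g + 16 * (θ * m)) * u ^ 2 +
      (∑ k, 4 * (c k * (θ * x k ^ 2 - 2 * (θ * w k * u * x k) + u * t k * x k +
        θ * u * y k)) + 4 * (θ * x j * s + u * t j * s - θ * u * σ)) := by
  have hm0 : 0 ≤ m := (Finset.sum_nonneg fun k _ => mul_nonneg (hc k) (sq_nonneg _)).trans hm
  have b2 := (cr hc ht x u (1 / 2) (by norm_num) hθ (b := 2 * (g * u ^ 2)) (by positivity)
    (by ring_nf; exact le_rfl)).2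
  have b3 := (cr hc hm x (2 * (θ * u)) (1 / 2) (by norm_num) hθ (b := 8 * (θ * m * u ^ 2))
    (by positivity) (by ring_nf; exact le_rfl)).1
  have e1 : ∑ k, 4 * (c k * (θ * x k ^ 2 - 2 * (θ * w k * u * x k) + u * t k * x k +
        θ * u * y k)) = 4 * (θ * ∑ k, c k * x k ^ 2) -
      4 * (2 * (θ * u) * ∑ k, c k * (w k * x k)) + 4 * (u * ∑ k, c k * (t k * x k)) +
      4 * (θ * u * (σ + ρ)) := by
    rw [hσ]
    simp only [Finset.mul_sum]
    rw [← Finset.sum_sub_distrib, ← Finset.sum_add_distrib, ← Finset.sum_add_distrib]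
    exact Finset.sum_congr rfl fun k _ => by ring
  have e0 : ∑ k, c k * (θ * x k ^ 2) = θ * ∑ k, c k * x k ^ 2 := by
    rw [Finset.mul_sum]; exact Finset.sum_congr rfl fun k _ => by ring
  have hxj : c j * x j ^ 2 ≤ ∑ k, c k * x k ^ 2 :=
    Finset.single_le_sum (f := fun k => c k * x k ^ 2)
      (fun k _ => mul_nonneg (hc k) (sq_nonneg _)) (Finset.mem_univ j)
  have htj : c j * t j ^ 2 ≤ g * θ :=
    (Finset.single_le_sum (f := fun k => c k * t k ^ 2)
      (fun k _ => mul_nonneg (hc k) (sq_nonneg _)) (Finset.mem_univ j)).trans ht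
  have d1 := (ag (U := θ * x j * s) (A := 1 / 2 * (θ * (c j * x j ^ 2)))
    (B := 2 / c j * (θ * s ^ 2)) (by positivity) (by positivity) (by
      have : (θ * x j * s) ^ 2 = 1 / 2 * (θ * (c j * x j ^ 2)) * (2 / c j * (θ * s ^ 2)) := by
        field_simp
      exact this.le)).2
  have d3 := (ag (U := u * t j * s) (A := 1 / c j * (θ * s ^ 2)) (B := g * u ^ 2)
    (by positivity) (by positivity) (by
      by_cases h0 : θ = 0
      · have h1 : c j * t j ^ 2 ≤ 0 := by simpa [h0] using htj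
        have h2 : t j = 0 := by
          have : t j ^ 2 ≤ 0 := by
            by_contra hh
            push Not at hh
            exact absurd (mul_pos hj hh) (not_lt.2 h1)
          exact pow_eq_zero_iff (two_ne_zero) |>.1 (le_antisymm this (sq_nonneg _))
        simp [h2, h0]
      · calc (u * t j * s) ^ 2 = 1 / c j * (u ^ 2 * s ^ 2) * (c j * t j ^ 2) := by
              field_simp
          _ ≤ 1 / c j * (u ^ 2 * s ^ 2) * (g * θ) := by gcongr
          _ = _ := by ring)).2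
  have hX : θ * (c j * x j ^ 2) ≤ θ * ∑ k, c k * x k ^ 2 := by gcongr
  rw [e0, e1]
  have f1 : 6 / c j * (θ * s ^ 2) =
      2 * (2 / c j * (θ * s ^ 2)) + 2 * (1 / c j * (θ * s ^ 2)) := by ring
  have hA : 0 ≤ θ * ∑ k, c k * x k ^ 2 :=
    mul_nonneg hθ (Finset.sum_nonneg fun k _ => mul_nonneg (hc k) (sq_nonneg _))
  rw [f1]
  nlinarith [b2, b3, d1, d3, hX, hA]

end pw

/-! ## The inequalities -/

variable {E : Type} [NormedAddCommGroup E] [NormedSpace ℝ E]
variable {κ : Type} [Fintype κ] (v : κ → E) (c : κ → ℝ) (W : Sm E)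

/-- `A_k^*`. -/
def As (v : κ → E) (W : Sm E) (k : κ) : Op E := -dv (v k) + ml (ds (v k) W)

omit [Fintype κ] in
theorem Ak_apply (k : κ) (h : TE E) : Ak v W k h = dv (v k) h + ml (ds (v k) W) h := rfl

omit [Fintype κ] in
theorem As_apply (k : κ) (h : TE E) : As v W k h = -dv (v k) h + ml (ds (v k) W) h := rfl

omit [Fintype κ] in
theorem As_eq (k : κ) (h : TE E) : As v W k h = (2 : ℝ) • ml (ds (v k) W) h - Ak v W k h := by
  rw [As_apply, Ak_apply, two_smul]
  abel

omit [Fintype κ] in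
/-- `A_k` on a product. -/
theorem Ak_ml (k : κ) (f : Sm E) (h : TE E) :
    Ak v W k (ml f h) = ml f (Ak v W k h) + ml (ds (v k) f) h := by
  rw [Ak_apply, Ak_apply, dv_mlS, map_add]
  have := LinearMap.congr_fun (mlc (ds (v k) W) f) h
  simp only [Module.End.mul_apply] at this
  rw [this]
  abel

omit [Fintype κ] in
theorem As_ml (k : κ) (f : Sm E) (h : TE E) :
    As v W k (ml f h) = ml f (As v W k h) - ml (ds (v k) f) h := by
  rw [As_apply, As_apply, dv_mlS, map_add, map_neg]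
  have := LinearMap.congr_fun (mlc (ds (v k) W) f) h
  simp only [Module.End.mul_apply] at this
  rw [this]
  abel

/-- The commutator `[S, A_j^*]`. -/
def rho (v : κ → E) (c : κ → ℝ) (W : Sm E) (j : κ) (h : TE E) : TE E :=
  ∑ k, c k • ((4 : ℝ) • ml (ds (v k) (ds (v j) W)) (Ak v W k h) +
    (2 : ℝ) • ml (ds (v k) (ds (v k) (ds (v j) W))) h)

theorem Sk_apply (h : TE E) : Sk v c W h = ∑ k, c k • Ak v W k (Ak v W k h) := by
  rw [Sk, LinearMap.sum_apply]
  rfl

/-- `S A_j^* h = A_j^* S h + ρ_j`. -/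
theorem Sk_As (j : κ) (h : TE E) :
    Sk v c W (As v W j h) = As v W j (Sk v c W h) + rho v c W j h := by
  have h1 : Sk v c W (Ak v W j h) = Ak v W j (Sk v c W h) := by
    have := LinearMap.congr_fun (Sk_comm v c W j) h
    simpa only [Module.End.mul_apply] using this
  have h2 : ∀ f : Sm E, Sk v c W (ml f h) = ml f (Sk v c W h) +
      ∑ k, c k • ((2 : ℝ) • ml (ds (v k) f) (Ak v W k h) + ml (ds (v k) (ds (v k) f)) h) := by
    intro f
    rw [Sk_apply, Sk_apply, map_sum, ← Finset.sum_add_distrib]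
    refine Finset.sum_congr rfl fun k _ => ?_
    rw [Ak_ml, map_add, Ak_ml, Ak_ml, map_smul, ← smul_add]
    congr 1
    rw [two_smul]
    abel
  rw [As_eq, As_eq, map_sub, map_smul, h1, h2, rho, smul_add, Finset.smul_sum]
  rw [show ∑ k, (2 : ℝ) • c k • ((2 : ℝ) • ml (ds (v k) (ds (v j) W)) (Ak v W k h) +
      ml (ds (v k) (ds (v k) (ds (v j) W))) h) =
    ∑ k, c k • ((4 : ℝ) • ml (ds (v k) (ds (v j) W)) (Ak v W k h) +
    (2 : ℝ) • ml (ds (v k) (ds (v k) (ds (v j) W))) h) from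
      Finset.sum_congr rfl fun k _ => by
        rw [smul_comm (2 : ℝ) (c k), smul_add, smul_smul]
        norm_num]
  abel

variable [MeasurableSpace E] [BorelSpace E] [FiniteDimensional ℝ E]
  (μ : Measure E) [μ.IsAddHaarMeasure]

variable {c} (hc : ∀ k, 0 ≤ c k) {θ m g : Sm E} (hθ : ∀ z, 0 ≤ (θ : E → ℝ) z)
  (hg : ∀ z, 0 ≤ (g : E → ℝ) z)
  (hm : ∀ z, ∑ k, c k * (ds (v k) W : E → ℝ) z ^ 2 ≤ (m : E → ℝ) z)
  (ht : ∀ z, ∑ k, c k * (ds (v k) θ : E → ℝ) z ^ 2 ≤ (g : E → ℝ) z * (θ : E → ℝ) z)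
include hc hθ hg hm ht

/-- **(W3)** Second order norms `A_k A_j h` by `S h` and the first order norm `A_j h` alone. -/
theorem W3 (j : κ) (hj : 0 < c j) (h : TE E) :
    ∑ k, c k * nn μ θ (Ak v W k (Ak v W j h)) ≤ 10 / c j * nn μ θ (Sk v c W h) +
      nn μ ((6 : ℝ) • g + (20 : ℝ) • (θ * m)) (Ak v W j h) := by
  have e : ∑ k, c k * nn μ θ (Ak v W k (Ak v W j h)) =
      In μ (∑ k, c k • mS (ml θ (Ak v W k (Ak v W j h))) (Ak v W k (Ak v W j h))) := by
    rw [map_sum]
    exact Finset.sum_congr rfl fun k _ => by rw [map_smul]; rfl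
  have e' : 10 / c j * nn μ θ (Sk v c W h) =
      In μ ((10 / c j) • mS (ml θ (Sk v c W h)) (Sk v c W h)) := by
    rw [map_smul]; rfl
  rw [e, e', nn_In, ← map_add]
  refine In_le μ (H := ∑ k, dv (v k) ((4 * c k) •
      mS (Ak v W j h) (ml θ (Ak v W k (Ak v W j h)))) -
    dv (v j) ((4 : ℝ) • mS (Ak v W j h) (ml θ (Sk v c W h)))) ?_ fun z => ?_
  · rw [map_sub, map_sum, In_dv, sub_zero]
    exact Finset.sum_eq_zero fun k _ => In_dv μ _ _
  · have key := w3_pw hc (hθ z) (hg z) (hm z) (ht z) j hj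
      (fun k => (Ak v W k (Ak v W j h)).fn z)
      (fun k => (Ak v W k (Ak v W k (Ak v W j h))).fn z) ((Ak v W j h).fn z)
      ((Sk v c W h).fn z) ((Sk v c W (Ak v W j h)).fn z) (Sk_fn v c W _ z)
    have hcm : Ak v W j (Sk v c W h) = Sk v c W (Ak v W j h) :=
      (LinearMap.congr_fun (Sk_comm v c W j) h).symm
    simp only [map_smul, dv_mS, dv_mlS]
    simp only [sum_fn, TE.add_fn, TE.smul_fn, TE.sub_fn, mS_fn, ml_apply, dv_Ak v W _, hcm]
      at key ⊢
    refine (le_of_eq ?_).trans (key.trans (le_of_eq ?_))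
    · exact Finset.sum_congr rfl fun k _ => by ring
    · congr 1
      · congr 1
        · ring
        · change _ = (6 * (g : E → ℝ) z + 20 * ((θ : E → ℝ) z * (m : E → ℝ) z)) *
            (Ak v W j h).fn z * (Ak v W j h).fn z
          ring
      · congr 1
        · exact Finset.sum_congr rfl fun k _ => by ring
        · ring

/-- **(W4)** The same for `A_j^* h`. -/
theorem W4 (j : κ) (hj : 0 < c j) (h : TE E) :
    ∑ k, c k * nn μ θ (Ak v W k (As v W j h)) +
        4 * ip μ (ml θ (As v W j h)) (rho v c W j h) ≤ 6 / c j * nn μ θ (Sk v c W h) +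
      nn μ ((6 : ℝ) • g + (16 : ℝ) • (θ * m)) (As v W j h) := by
  have e : ∑ k, c k * nn μ θ (Ak v W k (As v W j h)) =
      In μ (∑ k, c k • mS (ml θ (Ak v W k (As v W j h))) (Ak v W k (As v W j h))) := by
    rw [map_sum]
    exact Finset.sum_congr rfl fun k _ => by rw [map_smul]; rfl
  have e' : 6 / c j * nn μ θ (Sk v c W h) =
      In μ ((6 / c j) • mS (ml θ (Sk v c W h)) (Sk v c W h)) := by
    rw [map_smul]; rfl
  have e'' : 4 * ip μ (ml θ (As v W j h)) (rho v c W j h) =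
      In μ ((4 : ℝ) • mS (ml θ (As v W j h)) (rho v c W j h)) := by
    rw [map_smul]; rfl
  rw [e, e', e'', nn_In, ← map_add, ← map_add]
  refine In_le μ (H := ∑ k, dv (v k) ((4 * c k) •
      mS (As v W j h) (ml θ (Ak v W k (As v W j h)))) +
    dv (v j) ((4 : ℝ) • mS (As v W j h) (ml θ (Sk v c W h)))) ?_ fun z => ?_
  · rw [map_add, map_sum, In_dv, add_zero]
    exact Finset.sum_eq_zero fun k _ => In_dv μ _ _
  · have hS : Sk v c W (As v W j h) = As v W j (Sk v c W h) + rho v c W j h := Sk_As v c W j h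
    have hd : dv (v j) (Sk v c W h) = ml (ds (v j) W) (Sk v c W h) -
        As v W j (Sk v c W h) := by
      rw [As_apply]; abel
    have key := w4_pw hc (hθ z) (hg z) (hm z) (ht z) j hj
      (fun k => (Ak v W k (As v W j h)).fn z)
      (fun k => (Ak v W k (Ak v W k (As v W j h))).fn z) ((As v W j h).fn z)
      ((Sk v c W h).fn z) ((As v W j (Sk v c W h)).fn z) ((rho v c W j h).fn z)
      (by rw [← TE.add_fn, ← hS]; exact Sk_fn v c W _ z)
    simp only [map_smul, dv_mS, dv_mlS]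
    rw [hd]
    simp only [sum_fn, TE.add_fn, TE.smul_fn, TE.sub_fn, mS_fn, ml_apply, dv_Ak v W _]
      at key ⊢
    refine (le_of_eq ?_).trans (key.trans (le_of_eq ?_))
    · congr 1
      exact Finset.sum_congr rfl fun k _ => by ring
    · congr 1
      · congr 1
        · ring
        · change _ = (6 * (g : E → ℝ) z + 16 * ((θ : E → ℝ) z * (m : E → ℝ) z)) *
            (As v W j h).fn z * (As v W j h).fn z
          ring
      · congr 1
        · exact Finset.sum_congr rfl fun k _ => by ring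
        · ring

omit hc hθ hg hm ht

/-- **(L5)** One pair of directions, exact. -/
theorem L5 (i j : κ) (g : Sm E) (h : TE E) :
    ip μ (ml g (Ak v W j (Ak v W j h))) (Ak v W i h) =
      2 * ip μ (ml (g * ds (v j) W) (Ak v W j h)) (Ak v W i h) -
        ip μ (ml (ds (v j) g) (Ak v W j h)) (Ak v W i h) -
        nn μ (g * ds (v i) W) (Ak v W j h) + 1 / 2 * nn μ (ds (v i) g) (Ak v W j h) := by
  have h1 : ∀ z, (Ak v W i (Ak v W j h)).fn z = (Ak v W j (Ak v W i h)).fn z := fun z => by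
    have := LinearMap.congr_fun (Ak_comm v W i j) h
    simp only [Module.End.mul_apply] at this
    rw [this]
  have e : ip μ (ml g (Ak v W j (Ak v W j h))) (Ak v W i h) -
      (2 * ip μ (ml (g * ds (v j) W) (Ak v W j h)) (Ak v W i h) -
        ip μ (ml (ds (v j) g) (Ak v W j h)) (Ak v W i h) -
        nn μ (g * ds (v i) W) (Ak v W j h) + 1 / 2 * nn μ (ds (v i) g) (Ak v W j h)) =
      In μ (mS (ml g (Ak v W j (Ak v W j h))) (Ak v W i h) -
        ((2 : ℝ) • mS (ml (g * ds (v j) W) (Ak v W j h)) (Ak v W i h) -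
        mS (ml (ds (v j) g) (Ak v W j h)) (Ak v W i h) -
        mS (ml (g * ds (v i) W) (Ak v W j h)) (Ak v W j h) +
        (1 / 2 : ℝ) • mS (ml (ds (v i) g) (Ak v W j h)) (Ak v W j h))) := by
    simp only [map_sub, map_add, map_smul, smul_eq_mul]
    rfl
  have e2 : mS (ml g (Ak v W j (Ak v W j h))) (Ak v W i h) -
        ((2 : ℝ) • mS (ml (g * ds (v j) W) (Ak v W j h)) (Ak v W i h) -
        mS (ml (ds (v j) g) (Ak v W j h)) (Ak v W i h) -
        mS (ml (g * ds (v i) W) (Ak v W j h)) (Ak v W j h) +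
        (1 / 2 : ℝ) • mS (ml (ds (v i) g) (Ak v W j h)) (Ak v W j h)) =
      dv (v j) (mS (ml g (Ak v W j h)) (Ak v W i h)) -
        dv (v i) ((1 / 2 : ℝ) • mS (ml g (Ak v W j h)) (Ak v W j h)) := by
    ext z
    have h2 := h1 z
    simp only [map_smul, dv_mS, dv_mlS]
    simp only [TE.add_fn, TE.smul_fn, TE.sub_fn, mS_fn, ml_apply, dv_Ak v W _]
    have e3 : ∀ f f' : Sm E, ((f * f' : Sm E) : E → ℝ) z = (f : E → ℝ) z * (f' : E → ℝ) z :=
      fun _ _ => rfl
    simp only [e3, h2]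
    ring
  rw [e2, map_sub, In_dv, In_dv, sub_zero] at e
  linarith

end Vale.Agent.P088.R2.H856.B
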