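import Vale.Agent.P088.R2.H516.B.Def
import Vale.Agent.P088.R2.H856.B.En2

/-!
# Supports, and the calculus of the weighted norms `nn μ θ f = ∫ θ f²`
-/

open MeasureTheory Set

noncomputable section

namespace Vale.Agent.P088.R2.H856.B

open Vale.Agent.P088.R2.H464.EP Vale.Agent.P088.R2.H961.B.T Vale.Agent.P088.R2.H516.B

variable {E : Type} [NormedAddCommGroup E] [NormedSpace ℝ E]

/-! ## Supports -/

theorem su_of {Z : Set E} {f g : TE E} (hf : Su Z f) (h : ∀ z, z ∉ tsupport f.fn → g.fn z = 0) :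
    Su Z g := by
  refine Set.Subset.trans ?_ hf
  refine closure_minimal (fun z hz => ?_) (isClosed_tsupport _)
  by_contra hh
  exact hz (h z hh)

theorem su_zero {Z : Set E} {f : TE E} (hf : Su Z f) {z : E} (hz : z ∉ Z) : f.fn z = 0 :=
  image_eq_zero_of_notMem_tsupport fun h => hz (hf h)

theorem su_add {Z : Set E} {f g : TE E} (hf : Su Z f) (hg : Su Z g) : Su Z (f + g) := by
  have h1 : IsClosed (tsupport f.fn ∪ tsupport g.fn) :=
    (isClosed_tsupport _).union (isClosed_tsupport _)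
  refine Set.Subset.trans (closure_minimal (fun z hz => ?_) h1) (Set.union_subset hf hg)
  by_contra hh
  rw [Set.mem_union, not_or] at hh
  exact hz (by
    rw [TE.add_fn, image_eq_zero_of_notMem_tsupport hh.1, image_eq_zero_of_notMem_tsupport hh.2,
      add_zero])

theorem su_smul {Z : Set E} {f : TE E} (hf : Su Z f) (c : ℝ) : Su Z (c • f) :=
  su_of hf fun z hz => by rw [TE.smul_fn, image_eq_zero_of_notMem_tsupport hz, mul_zero]

theorem su_neg {Z : Set E} {f : TE E} (hf : Su Z f) : Su Z (-f) :=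
  su_of hf fun z hz => by rw [TE.neg_fn, image_eq_zero_of_notMem_tsupport hz, neg_zero]

theorem su_sub {Z : Set E} {f g : TE E} (hf : Su Z f) (hg : Su Z g) : Su Z (f - g) := by
  rw [sub_eq_add_neg]; exact su_add hf (su_neg hg)

theorem su_ml {Z : Set E} {f : TE E} (hf : Su Z f) (g : Sm E) : Su Z (ml g f) :=
  su_of hf fun z hz => by rw [ml_apply, image_eq_zero_of_notMem_tsupport hz, mul_zero]

theorem su_dv {Z : Set E} {f : TE E} (hf : Su Z f) (v : E) : Su Z (dv v f) :=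
  Set.Subset.trans (tsupport_fderiv_apply_subset ℝ v) hf

theorem su_z {Z : Set E} : Su Z (0 : TE E) := by
  refine Set.Subset.trans (closure_minimal (t := ∅) (fun z hz => ?_) isClosed_empty)
    (Set.empty_subset _)
  exact absurd rfl hz

theorem su_sum {Z : Set E} {κ : Type*} (s : Finset κ) {f : κ → TE E} (hf : ∀ i ∈ s, Su Z (f i)) :
    Su Z (∑ i ∈ s, f i) := by
  classical
  induction s using Finset.induction_on with
  | empty => rw [Finset.sum_empty]; exact su_z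
  | insert i s hi ih =>
    rw [Finset.sum_insert hi]
    exact su_add (hf i (Finset.mem_insert_self _ _))
      (ih fun j hj => hf j (Finset.mem_insert_of_mem hj))

theorem su_Ak {Z : Set E} {κ : Type} (v : κ → E) (W : Sm E) (k : κ) {f : TE E} (hf : Su Z f) :
    Su Z (Ak v W k f) := by
  rw [Ak_apply]; exact su_add (su_dv hf _) (su_ml hf _)

theorem su_As {Z : Set E} {κ : Type} (v : κ → E) (W : Sm E) (k : κ) {f : TE E} (hf : Su Z f) :
    Su Z (As v W k f) := by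
  rw [As_apply]; exact su_add (su_neg (su_dv hf _)) (su_ml hf _)

theorem su_Sk {Z : Set E} {κ : Type} [Fintype κ] (v : κ → E) (c : κ → ℝ) (W : Sm E) {f : TE E}
    (hf : Su Z f) : Su Z (Sk v c W f) := by
  rw [Sk_apply]
  exact su_sum _ fun k _ => su_smul (su_Ak v W k (su_Ak v W k hf)) _

/-! ## Norms -/

variable [MeasurableSpace E] [BorelSpace E] [FiniteDimensional ℝ E]
  (μ : Measure E) [μ.IsAddHaarMeasure]

theorem In_mono_on {Z : Set E} {f g : TE E} (hf : Su Z f) (hg : Su Z g)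
    (h : ∀ z ∈ Z, f.fn z ≤ g.fn z) : In μ f ≤ In μ g :=
  In_mono μ fun z => by
    by_cases hz : z ∈ Z
    · exact h z hz
    · rw [su_zero hf hz, su_zero hg hz]

theorem nn_nonneg {θ : Sm E} (hθ : ∀ z, 0 ≤ (θ : E → ℝ) z) (f : TE E) : 0 ≤ nn μ θ f :=
  ip_ml_nonneg μ hθ f

theorem nn_mono {θ θ' : Sm E} {Z : Set E} {f : TE E} (hf : Su Z f)
    (h : ∀ z ∈ Z, (θ : E → ℝ) z ≤ (θ' : E → ℝ) z) : nn μ θ f ≤ nn μ θ' f := by
  rw [nn_In, nn_In]
  refine In_mono μ fun z => ?_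
  simp only [mS_fn, ml_apply]
  by_cases hz : z ∈ Z
  · have := mul_le_mul_of_nonneg_right (h z hz) (mul_self_nonneg (f.fn z))
    rw [mul_assoc, mul_assoc]; exact this
  · rw [su_zero hf hz]; simp

theorem nn_eq {θ θ' : Sm E} {f f' : TE E}
    (h : ∀ z, (θ : E → ℝ) z * (f.fn z * f.fn z) = (θ' : E → ℝ) z * (f'.fn z * f'.fn z)) :
    nn μ θ f = nn μ θ' f' := by
  rw [nn_In, nn_In]
  congr 1
  ext z
  simp only [mS_fn, ml_apply]
  rw [mul_assoc, mul_assoc, h z]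

theorem nn_add_w (θ θ' : Sm E) (f : TE E) : nn μ (θ + θ') f = nn μ θ f + nn μ θ' f := by
  rw [nn, nn, nn, map_add, LinearMap.add_apply, map_add, LinearMap.add_apply]

theorem nn_smul_w (c : ℝ) (θ : Sm E) (f : TE E) : nn μ (c • θ) f = c * nn μ θ f := by
  rw [nn, nn, map_smul, LinearMap.smul_apply, map_smul, LinearMap.smul_apply, smul_eq_mul]

theorem nn_smul (θ : Sm E) (c : ℝ) (f : TE E) : nn μ θ (c • f) = c ^ 2 * nn μ θ f := by
  rw [nn, nn, map_smul (ml θ), map_smul (ip μ), LinearMap.smul_apply, map_smul, smul_eq_mul,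
    smul_eq_mul]
  ring

theorem nn_ml (θ ρ : Sm E) (f : TE E) : nn μ θ (ml ρ f) = nn μ (θ * ρ * ρ) f :=
  nn_eq μ fun z => by
    change _ = (θ : E → ℝ) z * (ρ : E → ℝ) z * (ρ : E → ℝ) z * _
    rw [ml_apply]; ring

theorem nn_le {θ : Sm E} (f : TE E) (F : TE E)
    (h : ∀ z, (θ : E → ℝ) z * (f.fn z * f.fn z) ≤ F.fn z) : nn μ θ f ≤ In μ F := by
  rw [nn_In]
  refine In_mono μ fun z => ?_
  simp only [mS_fn, ml_apply]
  rw [mul_assoc]; exact h z

theorem nn_add_le {θ : Sm E} (hθ : ∀ z, 0 ≤ (θ : E → ℝ) z) (f g : TE E) :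
    nn μ θ (f + g) ≤ 2 * nn μ θ f + 2 * nn μ θ g := by
  have e : 2 * nn μ θ f + 2 * nn μ θ g =
      In μ ((2 : ℝ) • mS (ml θ f) f + (2 : ℝ) • mS (ml θ g) g) := by
    rw [map_add, map_smul, map_smul]; rfl
  rw [e]
  refine nn_le μ _ _ fun z => ?_
  simp only [TE.add_fn, TE.smul_fn, mS_fn, ml_apply]
  nlinarith [mul_nonneg (hθ z) (sq_nonneg (f.fn z - g.fn z))]

theorem nn_sub_le {θ : Sm E} (hθ : ∀ z, 0 ≤ (θ : E → ℝ) z) (f g : TE E) :
    nn μ θ (f - g) ≤ 2 * nn μ θ f + 2 * nn μ θ g := by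
  have e : 2 * nn μ θ f + 2 * nn μ θ g =
      In μ ((2 : ℝ) • mS (ml θ f) f + (2 : ℝ) • mS (ml θ g) g) := by
    rw [map_add, map_smul, map_smul]; rfl
  rw [e]
  refine nn_le μ _ _ fun z => ?_
  simp only [TE.sub_fn, TE.add_fn, TE.smul_fn, mS_fn, ml_apply]
  nlinarith [mul_nonneg (hθ z) (sq_nonneg (f.fn z + g.fn z))]

theorem nn_add3_le {θ : Sm E} (hθ : ∀ z, 0 ≤ (θ : E → ℝ) z) (f g h : TE E) :
    nn μ θ (f + g + h) ≤ 3 * (nn μ θ f + nn μ θ g + nn μ θ h) := by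
  have e : 3 * (nn μ θ f + nn μ θ g + nn μ θ h) =
      In μ ((3 : ℝ) • (mS (ml θ f) f + mS (ml θ g) g + mS (ml θ h) h)) := by
    rw [map_smul, map_add, map_add]; rfl
  rw [e]
  refine nn_le μ _ _ fun z => ?_
  simp only [TE.add_fn, TE.smul_fn, mS_fn, ml_apply]
  nlinarith [mul_nonneg (hθ z) (sq_nonneg (f.fn z - g.fn z)),
    mul_nonneg (hθ z) (sq_nonneg (g.fn z - h.fn z)), mul_nonneg (hθ z) (sq_nonneg (f.fn z - h.fn z))]

theorem nn_sum_le {κ : Type*} (s : Finset κ) {θ : Sm E} (hθ : ∀ z, 0 ≤ (θ : E → ℝ) z)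
    (f : κ → TE E) : nn μ θ (∑ i ∈ s, f i) ≤ s.card * ∑ i ∈ s, nn μ θ (f i) := by
  have e : (s.card : ℝ) * ∑ i ∈ s, nn μ θ (f i) =
      In μ ((s.card : ℝ) • ∑ i ∈ s, mS (ml θ (f i)) (f i)) := by
    rw [map_smul, map_sum]; rfl
  rw [e]
  refine nn_le μ _ _ fun z => ?_
  simp only [TE.smul_fn, sum_fn, mS_fn, ml_apply]
  have h1 := sq_sum_le_card_mul_sum_sq (s := s) (f := fun i => (f i).fn z)
  have h2 : ∑ i ∈ s, (θ : E → ℝ) z * (f i).fn z * (f i).fn z =
      (θ : E → ℝ) z * ∑ i ∈ s, (f i).fn z ^ 2 := by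
    rw [Finset.mul_sum]; exact Finset.sum_congr rfl fun i _ => by ring
  rw [h2]
  nlinarith [mul_le_mul_of_nonneg_left h1 (hθ z)]

theorem nn_neg (θ : Sm E) (f : TE E) : nn μ θ (-f) = nn μ θ f :=
  nn_eq μ fun z => by simp

end Vale.Agent.P088.R2.H856.B
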