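import Vale.Agent.P088.R2.H856.B.Wgt

/-!
# `L0`, `L2`, `W3` on a zone, for the weights `E^α μ^β`
-/

open MeasureTheory Set

noncomputable section

namespace Vale.Agent.P088.R2.H856.B

open Vale.Agent.P088.R2.H464.EP Vale.Agent.P088.R2.H961.B.T Vale.Agent.P088.R2.H516.B

variable {ι E : Type} [Fintype ι] [DecidableEq ι] [NormedAddCommGroup E] [NormedSpace ℝ E]
  {S : Dat ι E} {w : Wd S} {Z : Set E} {N : Sm E} {Lam eps : ℝ}

/-- The functions `m`, `g` of the energy inequalities. -/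
theorem wt_mg (hz : Zn S Z N Lam eps) (hc : Zc S Z N Lam) {θ : Sm E} (hθ : Wt S w θ) :
    ∃ m g : Sm E, (∀ z, 0 ≤ (g : E → ℝ) z) ∧
      (∀ z, ∑ k, cc k * (ds (vv S k) S.w : E → ℝ) z ^ 2 ≤ (m : E → ℝ) z) ∧
      (∀ z, ∑ k, cc k * (ds (vv S k) θ : E → ℝ) z ^ 2 ≤ (g : E → ℝ) z * (θ : E → ℝ) z) ∧
      (∀ z ∈ Z, (m : E → ℝ) z ≤
        QQ (Fintype.card ι) Lam * ((S.e : E → ℝ) z * (mu S : E → ℝ) z)) ∧
      (∀ z ∈ Z, (g : E → ℝ) z ≤
        16 * QQ (Fintype.card ι) Lam * ((S.e : E → ℝ) z * (mu S : E → ℝ) z) *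
          (θ : E → ℝ) z) := by
  obtain ⟨h0, α, β, hα, hβ, hL⟩ := hθ
  refine ⟨∑ k, cc k • (ds (vv S k) S.w * ds (vv S k) S.w),
    (∑ k, cc k • ((α • le S k + β • lm S w k) * (α • le S k + β • lm S w k))) * θ, ?_, ?_, ?_,
    ?_, ?_⟩
  · intro z
    rw [sm_mul, sm_sum]
    refine mul_nonneg (Finset.sum_nonneg fun k _ => ?_) (h0 z)
    rw [sm_smul, sm_mul]
    exact mul_nonneg (cc_pos k).le (mul_self_nonneg _)
  · intro z
    rw [sm_sum]
    refine le_of_eq (Finset.sum_congr rfl fun k _ => ?_)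
    rw [sm_smul, sm_mul]; ring
  · intro z
    rw [sm_mul, sm_sum, Finset.sum_mul, Finset.sum_mul]
    refine le_of_eq (Finset.sum_congr rfl fun k _ => ?_)
    rw [hL k]
    simp only [sm_smul, sm_mul, sm_add]
    ring
  · intro z h
    rw [sm_sum]
    refine le_trans (le_of_eq (Finset.sum_congr rfl fun k _ => ?_)) (m_le w hz hc h)
    rw [sm_smul, sm_mul]; ring
  · intro z h
    rw [sm_mul, sm_sum]
    refine mul_le_mul_of_nonneg_right ?_ (h0 z)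
    refine le_trans (le_of_eq (Finset.sum_congr rfl fun k _ => ?_)) (t_le w hz hα hβ h)
    rw [sm_smul, sm_mul]; ring

variable [MeasurableSpace E] [BorelSpace E] [FiniteDimensional ℝ E]
  (μ : Measure E) [μ.IsAddHaarMeasure]

theorem mg_le {θ m g : Sm E} {Q : ℝ} (h0 : ∀ z, 0 ≤ (θ : E → ℝ) z) {p r : ℝ} (hp : 0 ≤ p)
    (hr : 0 ≤ r)
    (hm : ∀ z ∈ Z, (m : E → ℝ) z ≤ Q * ((S.e : E → ℝ) z * (mu S : E → ℝ) z))
    (hg : ∀ z ∈ Z, (g : E → ℝ) z ≤ 16 * Q * ((S.e : E → ℝ) z * (mu S : E → ℝ) z) *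
      (θ : E → ℝ) z) {h : TE E} (hh : Su Z h) :
    nn μ (p • g + r • (θ * m)) h ≤ ((16 * p + r) * Q) * nn μ (θ * (S.e * mu S)) h := by
  rw [← nn_smul_w]
  refine nn_mono μ hh fun z hz => ?_
  have a1 := hm z hz
  have a2 := hg z hz
  have a3 := h0 z
  simp only [sm_add, sm_smul, sm_mul] at *
  calc p * (g : E → ℝ) z + r * ((θ : E → ℝ) z * (m : E → ℝ) z) ≤
        p * (16 * Q * ((S.e : E → ℝ) z * (mu S : E → ℝ) z) * (θ : E → ℝ) z) +
        r * ((θ : E → ℝ) z * (Q * ((S.e : E → ℝ) z * (mu S : E → ℝ) z))) := by gcongr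
    _ = _ := by ring

variable (hz : Zn S Z N Lam eps) (hc : Zc S Z N Lam) {θ : Sm E} (hθ : Wt S w θ)
include hz hc hθ

/-- **(L0)** on the zone. -/
theorem L0z {θ₁ θ₂ : Sm E} (h1 : ∀ z, 0 ≤ (θ₁ : E → ℝ) z) (h2 : ∀ z, 0 ≤ (θ₂ : E → ℝ) z)
    (h12 : ∀ z, (θ : E → ℝ) z ^ 2 ≤ (θ₁ : E → ℝ) z * (θ₂ : E → ℝ) z) {h : TE E} (hh : Su Z h) :
    ∑ k, cc k * nn μ θ (Ak (vv S) S.w k h) ≤ nn μ θ₁ (So S h) +
      (40 * QQ (Fintype.card ι) Lam) * nn μ (θ * (S.e * mu S)) h + nn μ θ₂ h := by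
  obtain ⟨m, g, hg, hm, ht, bm, bg⟩ := wt_mg hz hc hθ
  have key := L0 μ (vv S) S.w (fun k => (cc_pos k).le) hθ.1 hg hm ht h1 h2 h12 h
  rw [Sk_vv, nn_add_w] at key
  have h3 := mg_le μ hθ.1 (p := 2) (r := 8) (by norm_num) (by norm_num) bm bg hh
  rw [add_comm ((8 : ℝ) • (θ * m))] at key
  norm_num at h3
  linarith

/-- **(L2)** on the zone. -/
theorem L2z {h : TE E} (hh : Su Z h) :
    ∑ j, ∑ k, cc j * (cc k * nn μ θ (Ak (vv S) S.w k (Ak (vv S) S.w j h))) ≤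
      5 * nn μ θ (So S h) + (58 * QQ (Fintype.card ι) Lam) *
        ∑ j, cc j * nn μ (θ * (S.e * mu S)) (Ak (vv S) S.w j h) := by
  obtain ⟨m, g, hg, hm, ht, bm, bg⟩ := wt_mg hz hc hθ
  have key := L2 μ (vv S) S.w (fun k => (cc_pos k).le) hθ.1 hg hm ht h
  rw [Sk_vv] at key
  refine key.trans ?_
  rw [Finset.mul_sum]
  refine add_le_add le_rfl (Finset.sum_le_sum fun j _ => ?_)
  have h3 := mg_le μ hθ.1 (p := 3) (r := 10) (by norm_num) (by norm_num) bm bg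
    (su_Ak (vv S) S.w j hh)
  norm_num at h3
  calc _ ≤ cc j * (58 * QQ (Fintype.card ι) Lam *
        nn μ (θ * (S.e * mu S)) (Ak (vv S) S.w j h)) :=
          mul_le_mul_of_nonneg_left h3 (cc_pos j).le
    _ = _ := by ring

/-- **(W3)** on the zone. -/
theorem W3z (j : ι ⊕ ι) {h : TE E} (hh : Su Z h) :
    ∑ k, cc k * nn μ θ (Ak (vv S) S.w k (Ak (vv S) S.w j h)) ≤
      40 * nn μ θ (So S h) + (116 * QQ (Fintype.card ι) Lam) *
        nn μ (θ * (S.e * mu S)) (Ak (vv S) S.w j h) := by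
  obtain ⟨m, g, hg, hm, ht, bm, bg⟩ := wt_mg hz hc hθ
  have key := W3 (vv S) S.w μ (fun k => (cc_pos k).le) hθ.1 hg hm ht j (cc_pos j) h
  rw [Sk_vv] at key
  refine key.trans ?_
  have h3 := mg_le μ hθ.1 (p := 6) (r := 20) (by norm_num) (by norm_num) bm bg
    (su_Ak (vv S) S.w j hh)
  norm_num at h3
  have h4 : 10 / cc j ≤ 40 := by
    rw [div_le_iff₀ (cc_pos j)]
    have := cc_ge j
    linarith
  have h5 := nn_nonneg μ hθ.1 (So S h)
  have h6 := mul_le_mul_of_nonneg_right h4 h5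
  linarith

/-- **(L2)** with the derivatives `D` only. -/
theorem L2D {h : TE E} (hh : Su Z h) :
    ∑ j, ∑ k, nn μ θ (S.D k (S.D j h)) ≤
      5 * nn μ θ (S.D2 h) + (58 * QQ (Fintype.card ι) Lam) *
        ∑ j, nn μ (θ * (S.e * mu S)) (S.D j h) := by
  obtain ⟨m, g, hg, hm, ht, bm, bg⟩ := wt_mg hz hc hθ
  have hA : ∀ i, Ak S.a S.w i = S.D i := fun i => (S.D_eq i).symm
  have hS : Sk S.a (fun _ => (1 : ℝ)) S.w = S.D2 := by
    rw [Sk, Dat.D2]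
    exact Finset.sum_congr rfl fun i _ => by rw [one_smul, hA]
  have hm' : ∀ z, ∑ i, (1 : ℝ) * (ds (S.a i) S.w : E → ℝ) z ^ 2 ≤ (m : E → ℝ) z := fun z => by
    refine le_trans ?_ (hm z)
    rw [Fintype.sum_sum_type]
    refine le_add_of_le_of_nonneg (le_of_eq rfl) (Finset.sum_nonneg fun i _ => ?_)
    exact mul_nonneg (cc_pos _).le (sq_nonneg _)
  have ht' : ∀ z, ∑ i, (1 : ℝ) * (ds (S.a i) θ : E → ℝ) z ^ 2 ≤
      (g : E → ℝ) z * (θ : E → ℝ) z := fun z => by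
    refine le_trans ?_ (ht z)
    rw [Fintype.sum_sum_type]
    refine le_add_of_le_of_nonneg (le_of_eq rfl) (Finset.sum_nonneg fun i _ => ?_)
    exact mul_nonneg (cc_pos _).le (sq_nonneg _)
  have key := L2 μ S.a S.w (c := fun _ => (1 : ℝ)) (fun _ => zero_le_one) hθ.1 hg hm' ht' h
  rw [hS] at key
  simp only [one_mul, hA] at key
  refine key.trans ?_
  rw [Finset.mul_sum]
  refine add_le_add le_rfl (Finset.sum_le_sum fun j _ => ?_)
  have h3 := mg_le μ hθ.1 (p := 3) (r := 10) (by norm_num) (by norm_num) bm bg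
    (h := S.D j h) (by rw [← hA]; exact su_Ak S.a S.w j hh)
  norm_num at h3
  exact h3

end Vale.Agent.P088.R2.H856.B
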